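import Vale.Agent.P154.Experiment

open Filter Topology

namespace Vale.Agent.P154

variable {q : ℕ}

section scalar

/-- A nonnegative sequence with `X (n+1) ≤ X n - c X n ^ 2` tends to `0`. -/
theorem tendsto_zero_of_quadratic {X : ℕ → ℝ} {c : ℝ} (hc : 0 < c) (h0 : ∀ n, 0 ≤ X n)
    (h : ∀ n, X (n + 1) ≤ X n - c * X n ^ 2) : Tendsto X atTop (𝓝 0) := by
  have hanti : Antitone X := antitone_nat_of_succ_le fun n => by
    have := h n
    nlinarith [sq_nonneg (X n)]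
  have hbdd : BddBelow (Set.range X) := ⟨0, by rintro _ ⟨n, rfl⟩; exact h0 n⟩
  have hlim := tendsto_atTop_ciInf hanti hbdd
  set x := ⨅ n, X n with hx
  have hx0 : 0 ≤ x := le_ciInf h0
  have h1 : Tendsto (fun n => X (n + 1)) atTop (𝓝 x) := hlim.comp (tendsto_add_atTop_nat 1)
  have h2 : Tendsto (fun n => X n - c * X n ^ 2) atTop (𝓝 (x - c * x ^ 2)) :=
    hlim.sub ((hlim.pow 2).const_mul c)
  have h3 : x ≤ x - c * x ^ 2 := le_of_tendsto_of_tendsto' h1 h2 h
  have h4 : x ^ 2 ≤ 0 := by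
    by_contra hcon
    push Not at hcon
    have := mul_pos hc hcon
    linarith
  have h5 : x = 0 := by
    have : x ^ 2 = 0 := le_antisymm h4 (sq_nonneg x)
    exact pow_eq_zero_iff (two_ne_zero) |>.1 this
  rwa [h5] at hlim

end scalar

section

variable {Ω : Type*} {L : Ω → Fin q → ℝ}

/-- `adv` is the average distance of the likelihood vector to its mean. -/
theorem adv_eq (hq : 2 ≤ q) {lam : ℝ} (hlam : -(1 / ((q : ℝ) - 1)) ≤ lam)
    (hlam1 : lam ≤ 1) {ξ : ℕ → ℝ} (hξ : ∀ k, 0 ≤ ξ k) (hξ1 : HasSum ξ 1) (n : ℕ) :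
    adv q lam ξ n = 1 / (2 * q) * avg (fun k => ∑ i, |k i - mean k|) (lik q lam ξ n) := by
  have hn := experiment_lik hq hlam hlam1 hξ hξ1 n
  have hq0 : (0 : ℝ) < q := by
    have : 0 < q := by omega
    exact_mod_cast this
  unfold adv avg
  rw [← tsum_mul_left]
  refine tsum_congr fun ω => ?_
  have hp : prob q lam ξ n ω = mean (lik q lam ξ n ω) := rfl
  rw [hp]
  set k := lik q lam ξ n ω with hk
  have hk0 : ∀ i, 0 ≤ k i := hn.nonneg ω
  rcases (mean_nonneg hk0).eq_or_lt with h0 | h0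
  · have h1 : ∑ i, k i = 0 := by
      unfold mean at h0
      rcases div_eq_zero_iff.1 h0.symm with h | h
      · exact h
      · exact absurd h hq0.ne'
    have h2 : ∀ i, k i = 0 := fun i =>
      (Finset.sum_eq_zero_iff_of_nonneg fun j _ => hk0 j).1 h1 i (Finset.mem_univ i)
    rw [← h0]
    simp [h2, ← h0]
  · have h1 : ∀ i, |k i / (q * mean k) - 1 / q| = |k i - mean k| / (q * mean k) := fun i => by
      rw [← abs_of_pos (mul_pos hq0 h0), ← abs_div, abs_of_pos (mul_pos hq0 h0)]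
      congr 1
      field_simp
    simp only [h1]
    rw [← Finset.sum_div]
    field_simp

end

/-- average over `k` copies: closure of the class `{avg Ψ ≥ 0}`. -/
theorem avg_piE_nonneg {Ω : Type*} {L : Ω → Fin q → ℝ} (hL : Experiment q L) (hq : q ≠ 0)
    {Ψ f : (Fin q → ℝ) → ℝ} (hΨ : Gauge q Ψ) (hf : Gauge q f)
    (f_nonneg : ∀ k : Fin q → ℝ, (∀ i, 0 ≤ k i) → 0 ≤ f k)
    (h_one : 0 ≤ Ψ (fun _ => 1))
    (closure : ∀ k l : Fin q → ℝ, (∀ i, 0 ≤ k i) → (∀ i, 0 ≤ l i) →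
      f l * Ψ k + f k * Ψ l ≤ star Ψ k l)
    (h : 0 ≤ avg Ψ L) (k : ℕ) : 0 ≤ avg Ψ (piE L k) := by
  induction k with
  | zero => rwa [avg_piE_zero]
  | succ k ih =>
    rw [avg_piE_succ]
    have hk := hL.pi k
    have h1 := sum_le_avg_mul hL hk hq hΨ (Finset.univ : Finset (Fin 2))
      (a := ![Ψ, f]) (b := ![f, Ψ])
      (by intro r _; fin_cases r <;> assumption)
      (by intro r _; fin_cases r <;> assumption)
      (by
        intro k l hk hl
        have := closure k l hk hl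
        simp only [Fin.sum_univ_two, Matrix.cons_val_zero, Matrix.cons_val_one]
        linarith)
    simp only [Fin.sum_univ_two, Matrix.cons_val_zero, Matrix.cons_val_one] at h1
    refine le_trans ?_ h1
    exact add_nonneg (mul_nonneg h (Gauge.nonneg_avg hk f_nonneg))
      (mul_nonneg (Gauge.nonneg_avg hL f_nonneg) ih)

/-- If the average of `Φ` tends to `0` then so does `adv`. -/
theorem adv_tendsto_of_avg (hq : 2 ≤ q) {lam : ℝ} (hlam : -(1 / ((q:ℝ) - 1)) ≤ lam)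
    (hlam1 : lam ≤ 1) {ξ : ℕ → ℝ} (hξ : ∀ k, 0 ≤ ξ k) (hξ1 : HasSum ξ 1)
    {Φ : (Fin q → ℝ) → ℝ} (hΦ : Gauge q Φ)
    (control : ∀ ε : ℝ, 0 < ε → ∃ M : ℝ, ∀ k : Fin q → ℝ, (∀ i, 0 ≤ k i) →
      ∑ i, |k i - mean k| ≤ ε * mean k + M * Φ k)
    (hXlim : Tendsto (fun n => avg Φ (lik q lam ξ n)) atTop (𝓝 0)) :
    Tendsto (adv q lam ξ) atTop (𝓝 0) := by
  have hq0 : q ≠ 0 := by omega
  have hE := experiment_lik (q := q) hq hlam hlam1 hξ hξ1
  set X : ℕ → ℝ := fun n => avg Φ (lik q lam ξ n) with hX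
  -- conclusion
  have hqpos : (0 : ℝ) < q := by exact_mod_cast (by omega : 0 < q)
  have hadv0 : ∀ n, 0 ≤ adv q lam ξ n := by
    intro n
    rw [adv_eq hq hlam hlam1 hξ hξ1]
    exact mul_nonneg (by positivity) (tsum_nonneg fun ω => Finset.sum_nonneg fun i _ => abs_nonneg _)
  refine (Metric.tendsto_atTop).2 fun ε hε => ?_
  obtain ⟨M, hM⟩ := control ε hε
  have h1 : Tendsto (fun n => M * X n) atTop (𝓝 0) := by simpa using hXlim.const_mul M
  obtain ⟨N, hN'⟩ := (Metric.tendsto_atTop).1 h1 ε hε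
  refine ⟨N, fun n hn => ?_⟩
  have h2 := hN' n hn
  rw [Real.dist_eq, sub_zero] at h2 ⊢
  rw [abs_of_nonneg (hadv0 n), adv_eq hq hlam hlam1 hξ hξ1]
  have h3 : Summable fun ω => ∑ i, |lik q lam ξ n ω i - mean (lik q lam ξ n ω)| := by
    refine Summable.of_nonneg_of_le (fun ω => Finset.sum_nonneg fun i _ => abs_nonneg _)
      (fun ω => hM _ ((hE n).nonneg ω)) ?_
    exact (((hE n).summable_gauge hq0 gauge_mean).mul_left ε).add
      (((hE n).summable_gauge hq0 hΦ).mul_left M)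
  have h4 : avg (fun k => ∑ i, |k i - mean k|) (lik q lam ξ n) ≤
      avg (fun k => ε * mean k + M * Φ k) (lik q lam ξ n) :=
    Summable.tsum_le_tsum (fun ω => hM _ ((hE n).nonneg ω)) h3
      ((((hE n).summable_gauge hq0 gauge_mean).mul_left ε).add
      (((hE n).summable_gauge hq0 hΦ).mul_left M))
  rw [avg_add (hE n) hq0 (gauge_mean.const_mul ε) (hΦ.const_mul M), avg_const_mul, avg_const_mul,
    avg_mean (hE n) hq0] at h4
  have h5 : M * avg Φ (lik q lam ξ n) < ε := (le_abs_self _).trans_lt h2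
  have hq2 : (2 : ℝ) ≤ q := by exact_mod_cast hq
  rw [one_div, inv_mul_lt_iff₀ (by positivity)]
  nlinarith


/-- Abstract nonreconstruction theorem. -/
theorem adv_tendsto_zero (hq : 2 ≤ q) {lam κ₀ : ℝ} (hlam : -(1 / ((q:ℝ) - 1)) ≤ lam) (hlam1 : lam ≤ 1)
    (hlam0 : lam ≠ 0) (hκ₀ : 0 < κ₀) {Φ Ψ f κ : (Fin q → ℝ) → ℝ}
    (hΦ : Gauge q Φ) (hΨ : Gauge q Ψ) (hf : Gauge q f) (hκ : Gauge q κ)
    (Φ_nonneg : ∀ k : Fin q → ℝ, (∀ i, 0 ≤ k i) → 0 ≤ Φ k)
    (f_nonneg : ∀ k : Fin q → ℝ, (∀ i, 0 ≤ k i) → 0 ≤ f k)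
    (κ_nonneg : ∀ k : Fin q → ℝ, (∀ i, 0 ≤ k i) → 0 ≤ κ k)
    -- initial condition
    (h_init : ∀ s : Fin q, 0 ≤ Ψ (fun i => if i = s then 1 else 0))
    (h_one : 0 ≤ Ψ (fun _ => 1)) (h_one' : Φ (fun _ => 1) = 0)
    -- edge
    (edgeΦ : ∀ k : Fin q → ℝ, (∀ i, 0 ≤ k i) → Φ (noise lam k) = lam ^ 2 * Φ k)
    {c : ℝ} (hc : 0 ≤ c)
    (edgeΨ : ∀ k : Fin q → ℝ, (∀ i, 0 ≤ k i) → c * Ψ k ≤ Ψ (noise lam k))
    -- closure of the class
    (closure : ∀ k l : Fin q → ℝ, (∀ i, 0 ≤ k i) → (∀ i, 0 ≤ l i) →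
      f l * Ψ k + f k * Ψ l ≤ star Ψ k l)
    -- subadditivity on the class
    (subadd : ∀ k l : Fin q → ℝ, (∀ i, 0 ≤ k i) → (∀ i, 0 ≤ l i) →
      star Φ k l ≤ mean l * Φ k + mean k * Φ l - κ₀ * (Φ k * Φ l) - κ l * Ψ k - κ k * Ψ l)
    -- `Φ` controls the distance to uniform
    (control : ∀ ε : ℝ, 0 < ε → ∃ M : ℝ, ∀ k : Fin q → ℝ, (∀ i, 0 ≤ k i) →
      ∑ i, |k i - mean k| ≤ ε * mean k + M * Φ k)
    {ξ : ℕ → ℝ} (hξ : ∀ k, 0 ≤ ξ k) (hξ1 : HasSum ξ 1) {m : ℝ}
    (hξm : HasSum (fun k : ℕ => (k : ℝ) * ξ k) m) (hcrit : m * lam ^ 2 ≤ 1)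
    (hbranch : ∃ k, 2 ≤ k ∧ 0 < ξ k) :
    Tendsto (adv q lam ξ) atTop (𝓝 0) := by
  have hq0 : q ≠ 0 := by omega
  have hE := experiment_lik (q := q) hq hlam hlam1 hξ hξ1
  have hN : ∀ n, Experiment q (fun ω => noise lam (lik q lam ξ n ω)) := fun n =>
    (hE n).noise hq hlam hlam1
  -- `Ψ` has nonnegative average at all depths
  have hNΨ : ∀ n, 0 ≤ avg Ψ (lik q lam ξ n) →
      0 ≤ avg Ψ (fun ω => noise lam (lik q lam ξ n ω)) := fun n h => by
    rw [avg_noise]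
    refine (mul_nonneg hc h).trans ?_
    rw [← avg_const_mul]
    exact avg_mono (hE n) hq0 (hΨ.const_mul c) (hΨ.comp_noise hq hlam hlam1) edgeΨ
  have hΨn : ∀ n, 0 ≤ avg Ψ (lik q lam ξ n) := by
    intro n
    induction n with
    | zero => exact tsum_nonneg fun s => h_init s
    | succ n ih =>
      refine (hasSum_avg_lik_succ hq hlam hlam1 hξ hξ1 n hΨ).nonneg fun k => ?_
      exact mul_nonneg (hξ k)
        (avg_piE_nonneg (hN n) hq0 hΨ hf f_nonneg h_one closure (hNΨ n ih) k)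
  -- the recursion for `X n = avg Φ`
  set X : ℕ → ℝ := fun n => avg Φ (lik q lam ξ n) with hX
  have hX0 : ∀ n, 0 ≤ X n := fun n => Gauge.nonneg_avg (hE n) Φ_nonneg
  have hNΦ : ∀ n, avg Φ (fun ω => noise lam (lik q lam ξ n ω)) = lam ^ 2 * X n := fun n => by
    rw [avg_noise, hX, ← avg_const_mul]
    exact avg_congr (hE n) edgeΦ
  have hJ0 : ∀ n k, 0 ≤ avg Φ (piE (fun ω => noise lam (lik q lam ξ n ω)) k) := fun n k =>
    Gauge.nonneg_avg ((hN n).pi k) Φ_nonneg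
  have hstep : ∀ n k, avg Φ (piE (fun ω => noise lam (lik q lam ξ n ω)) (k + 1)) ≤
      avg Φ (piE (fun ω => noise lam (lik q lam ξ n ω)) k) + lam ^ 2 * X n -
        κ₀ * (lam ^ 2 * X n * avg Φ (piE (fun ω => noise lam (lik q lam ξ n ω)) k)) := by
    intro n k
    rw [avg_piE_succ]
    have hk : Experiment q (piE (fun ω => noise lam (lik q lam ξ n ω)) k) := (hN n).pi k
    have h1 := avg_mul_le_sum (hN n) hk hq0 hΦ (Finset.univ : Finset (Fin 5))
      (a := ![Φ, mean, fun k => (-κ₀) * Φ k, fun k => -Ψ k, fun k => -κ k])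
      (b := ![mean, Φ, Φ, κ, Ψ])
      (by
        intro r _
        fin_cases r
        · exact hΦ
        · exact gauge_mean
        · exact hΦ.const_mul _
        · exact hΨ.neg
        · exact hκ.neg)
      (by
        intro r _
        fin_cases r
        · exact gauge_mean
        · exact hΦ
        · exact hΦ
        · exact hκ
        · exact hΨ)
      (by
        intro k l hk hl
        have := subadd k l hk hl
        simp [Fin.sum_univ_five]
        linarith)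
    have e1 : avg (fun k => (-κ₀) * Φ k) (fun ω => noise lam (lik q lam ξ n ω)) =
        -κ₀ * (lam ^ 2 * X n) := by
      rw [avg_const_mul, hNΦ]
    have e2 : avg (fun k => -Ψ k) (fun ω => noise lam (lik q lam ξ n ω)) ≤ 0 := by
      have := avg_const_mul (L := fun ω => noise lam (lik q lam ξ n ω)) (-1) Ψ
      have h2 := hNΨ n (hΨn n)
      simp only [neg_one_mul] at this
      linarith
    have e3 : avg (fun k => -κ k) (fun ω => noise lam (lik q lam ξ n ω)) ≤ 0 := by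
      have := avg_const_mul (L := fun ω => noise lam (lik q lam ξ n ω)) (-1) κ
      have h2 := Gauge.nonneg_avg (hN n) κ_nonneg
      simp only [neg_one_mul] at this
      linarith
    have e4 : 0 ≤ avg κ (piE (fun ω => noise lam (lik q lam ξ n ω)) k) :=
      Gauge.nonneg_avg hk κ_nonneg
    have e5 : 0 ≤ avg Ψ (piE (fun ω => noise lam (lik q lam ξ n ω)) k) :=
      avg_piE_nonneg (hN n) hq0 hΨ hf f_nonneg h_one closure (hNΨ n (hΨn n)) k
    have e6 := avg_mean (hN n) hq0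
    have e7 : avg mean (piE (fun ω => noise lam (lik q lam ξ n ω)) k) = 1 := avg_mean hk hq0
    have e8 := hNΦ n
    simp only [Fin.sum_univ_five, Matrix.cons_val_zero, Matrix.cons_val_one, Matrix.cons_val,
      e1, e6, e7, e8] at h1
    have e9 := mul_nonpos_of_nonpos_of_nonneg e2 e4
    have e10 := mul_nonpos_of_nonpos_of_nonneg e3 e5
    linarith
  have hJ1 : ∀ n, avg Φ (piE (fun ω => noise lam (lik q lam ξ n ω)) 1) = lam ^ 2 * X n :=
    fun n => by rw [avg_piE_one, hNΦ]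
  have hY0 : ∀ n, 0 ≤ lam ^ 2 * X n := fun n => mul_nonneg (sq_nonneg _) (hX0 n)
  -- at most linear in the number of children
  have hlin : ∀ n k, avg Φ (piE (fun ω => noise lam (lik q lam ξ n ω)) k) ≤
      k * (lam ^ 2 * X n) := by
    intro n k
    induction k with
    | zero => rw [avg_piE_zero, h_one']; simp
    | succ k ih =>
      have h1 := hstep n k
      have h2 := mul_nonneg hκ₀.le (mul_nonneg (hY0 n) (hJ0 n k))
      push_cast
      linarith
  -- strictly less for at least two children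
  have hquad : ∀ n k, avg Φ (piE (fun ω => noise lam (lik q lam ξ n ω)) (k + 2)) ≤
      ((k + 2 : ℕ) : ℝ) * (lam ^ 2 * X n) - κ₀ * (lam ^ 2 * X n) ^ 2 := by
    intro n k
    induction k with
    | zero =>
      have h1 := hstep n 1
      rw [hJ1] at h1
      norm_num at h1 ⊢
      nlinarith
    | succ k ih =>
      have h1 := hstep n (k + 2)
      have h2 := mul_nonneg hκ₀.le (mul_nonneg (hY0 n) (hJ0 n (k + 2)))
      have e : k + 1 + 2 = k + 2 + 1 := by ring
      rw [e]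
      push_cast at ih h1 ⊢
      linarith
  obtain ⟨k₀, hk₀, hξk₀⟩ := hbranch
  obtain ⟨k₁, rfl⟩ : ∃ k₁, k₀ = k₁ + 2 := ⟨k₀ - 2, by omega⟩
  have hrec : ∀ n, X (n + 1) ≤ X n - (ξ (k₁ + 2) * κ₀ * lam ^ 4) * X n ^ 2 := by
    intro n
    have h1 := hasSum_avg_lik_succ hq hlam hlam1 hξ hξ1 n hΦ
    have h2 : HasSum (fun k : ℕ => (k : ℝ) * ξ k * (lam ^ 2 * X n) -
        if k = k₁ + 2 then ξ (k₁ + 2) * (κ₀ * (lam ^ 2 * X n) ^ 2) else 0)
        (m * (lam ^ 2 * X n) - ξ (k₁ + 2) * (κ₀ * (lam ^ 2 * X n) ^ 2)) :=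
      (hξm.mul_right _).sub (hasSum_ite_eq (k₁ + 2) _)
    have h3 := hasSum_le (fun k => ?_) h1 h2
    · have h4 : m * (lam ^ 2 * X n) ≤ 1 * X n := by
        rw [← mul_assoc]
        exact mul_le_mul_of_nonneg_right hcrit (hX0 n)
      have h5 : ξ (k₁ + 2) * (κ₀ * (lam ^ 2 * X n) ^ 2) =
          (ξ (k₁ + 2) * κ₀ * lam ^ 4) * X n ^ 2 := by ring
      have h6 : X (n + 1) = avg Φ (lik q lam ξ (n + 1)) := rfl
      rw [h6]
      linarith
    · by_cases hk : k = k₁ + 2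
      · subst hk
        rw [if_pos rfl]
        have h4 := mul_le_mul_of_nonneg_left (hquad n k₁) (hξ (k₁ + 2))
        linarith
      · rw [if_neg hk]
        have h4 := mul_le_mul_of_nonneg_left (hlin n k) (hξ k)
        linarith
  have hXlim : Tendsto X atTop (𝓝 0) := by
    refine tendsto_zero_of_quadratic ?_ hX0 hrec
    have : 0 < lam ^ 4 := by positivity
    positivity
  exact adv_tendsto_of_avg hq hlam hlam1 hξ hξ1 hΦ control hXlim

end Vale.Agent.P154
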