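import Vale.Agent.P154.Abstract

open Filter Topology

namespace Vale.Agent.P154

variable {q : ℕ}

/-- `star` is symmetric for symmetric functionals. -/
theorem star_comm {F : (Fin q → ℝ) → ℝ} (hF : Gauge q F) (k l : Fin q → ℝ) :
    star F k l = star F l k := by
  unfold star
  congr 1
  refine Fintype.sum_equiv (Equiv.inv (Equiv.Perm (Fin q))) _ _ fun π => ?_
  have h := hF.symm π (fun i => l i * k ((Equiv.inv (Equiv.Perm (Fin q))) π i))
  rw [← h]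
  congr 1
  funext i
  simp [mul_comm]

/-- A nonnegative sequence with `X (n+1) ≤ X n - c X n ^ 3` tends to `0`. -/
theorem tendsto_zero_of_cubic {X : ℕ → ℝ} {c : ℝ} (hc : 0 < c) (h0 : ∀ n, 0 ≤ X n)
    (h : ∀ n, X (n + 1) ≤ X n - c * X n ^ 3) : Tendsto X atTop (𝓝 0) := by
  have hanti : Antitone X := antitone_nat_of_succ_le fun n => by
    have := h n
    have h1 : 0 ≤ c * X n ^ 3 := mul_nonneg hc.le (pow_nonneg (h0 n) 3)
    linarith
  have hbdd : BddBelow (Set.range X) := ⟨0, by rintro _ ⟨n, rfl⟩; exact h0 n⟩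
  have hlim := tendsto_atTop_ciInf hanti hbdd
  set x := ⨅ n, X n with hx
  have hx0 : 0 ≤ x := le_ciInf h0
  have h1 : Tendsto (fun n => X (n + 1)) atTop (𝓝 x) := hlim.comp (tendsto_add_atTop_nat 1)
  have h2 : Tendsto (fun n => X n - c * X n ^ 3) atTop (𝓝 (x - c * x ^ 3)) :=
    hlim.sub ((hlim.pow 3).const_mul c)
  have h3 : x ≤ x - c * x ^ 3 := le_of_tendsto_of_tendsto' h1 h2 h
  have h5 : x = 0 := by
    by_contra hne
    have hpos : 0 < x := lt_of_le_of_ne hx0 (Ne.symm hne)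
    have := mul_pos hc (pow_pos hpos 3)
    linarith
  rwa [h5] at hlim

/-- Cauchy-Schwarz: `(avg Φ)² ≤ avg Φ2` when `Φ² ≤ Φ2 · mean` pointwise. -/
theorem sq_avg_le {Ω : Type*} {L : Ω → Fin q → ℝ} (hL : Experiment q L) (hq : q ≠ 0)
    {Φ Φ2 : (Fin q → ℝ) → ℝ} (hΦ : Gauge q Φ) (hΦ2 : Gauge q Φ2)
    (Φ_nonneg : ∀ k : Fin q → ℝ, (∀ i, 0 ≤ k i) → 0 ≤ Φ k)
    (h2 : ∀ k : Fin q → ℝ, (∀ i, 0 ≤ k i) → Φ k ^ 2 ≤ Φ2 k * mean k) :
    avg Φ L ^ 2 ≤ avg Φ2 L := by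
  have hX : 0 ≤ avg Φ L := Gauge.nonneg_avg hL Φ_nonneg
  set X := avg Φ L with hXdef
  -- `2 X Φ ≤ Φ2 + X² mean`
  have h3 : avg (fun k => (2 * X) * Φ k) L ≤ avg (fun k => Φ2 k + X ^ 2 * mean k) L := by
    refine avg_mono hL hq (hΦ.const_mul _) (hΦ2.add (gauge_mean.const_mul _)) fun k hk => ?_
    have a1 := h2 k hk
    have a2 := Φ_nonneg k hk
    have a3 := mean_nonneg hk
    rcases a3.eq_or_lt with h0 | h0
    · rw [← h0, mul_zero] at a1
      have a4 : Φ k = 0 := by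
        have : Φ k ^ 2 = 0 := le_antisymm a1 (sq_nonneg _)
        exact pow_eq_zero_iff two_ne_zero |>.1 this
      have a5 : 0 ≤ Φ2 k := by
        -- `mean k = 0` forces `k = 0`
        have hk0 : ∀ i, k i = 0 := by
          have hq0 : (0 : ℝ) < q := by exact_mod_cast Nat.pos_of_ne_zero hq
          have h1 : ∑ i, k i = 0 := by
            unfold mean at h0
            rcases div_eq_zero_iff.1 h0.symm with h | h
            · exact h
            · exact absurd h hq0.ne'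
          exact fun i => (Finset.sum_eq_zero_iff_of_nonneg fun j _ => hk j).1 h1 i
            (Finset.mem_univ i)
        have h1 : k = fun i => 0 * k i := by funext i; simp [hk0 i]
        have h2 := hΦ2.homog 0 k le_rfl hk
        rw [← h1, zero_mul] at h2
        rw [h2]
      rw [a4, ← h0]
      linarith
    · have a4 : Φ k ^ 2 / mean k ≤ Φ2 k := by rwa [div_le_iff₀ h0]
      have a5 : 2 * X * Φ k ≤ Φ k ^ 2 / mean k + X ^ 2 * mean k := by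
        have : Φ k ^ 2 / mean k + X ^ 2 * mean k - 2 * X * Φ k =
            (Φ k - X * mean k) ^ 2 / mean k := by
          field_simp
          ring
        have h6 : 0 ≤ (Φ k - X * mean k) ^ 2 / mean k := by positivity
        linarith
      linarith
  rw [avg_const_mul, avg_add hL hq hΦ2 (gauge_mean.const_mul _), avg_const_mul,
    avg_mean hL hq] at h3
  nlinarith

/-- Closure of a class `{avg (Ψ r) ≥ 0 for all r}` under multiplication by an experiment `L`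
in the class `{avg (Ψ' r) ≥ 0 for all r}` whose likelihood vectors satisfy `S`. -/
theorem avg_piE_nonneg' {Ω : Type*} {L : Ω → Fin q → ℝ} (hL : Experiment q L) (hq : q ≠ 0)
    {ι ι' : Type*} [Fintype ι] [Fintype ι'] {Ψ : ι → (Fin q → ℝ) → ℝ}
    {Ψ' : ι' → (Fin q → ℝ) → ℝ} {f : ι → ι → (Fin q → ℝ) → ℝ} {f' : ι → ι' → (Fin q → ℝ) → ℝ}
    (hΨ : ∀ r, Gauge q (Ψ r)) (hΨ' : ∀ r, Gauge q (Ψ' r)) (hf : ∀ r j, Gauge q (f r j))
    (hf' : ∀ r j, Gauge q (f' r j))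
    (f_nonneg : ∀ r j, ∀ k : Fin q → ℝ, (∀ i, 0 ≤ k i) → 0 ≤ f r j k)
    (f'_nonneg : ∀ r j, ∀ k : Fin q → ℝ, (∀ i, 0 ≤ k i) → 0 ≤ f' r j k)
    (h_one : ∀ r, 0 ≤ Ψ r (fun _ => 1)) {S : Set (Fin q → ℝ)} (hS : ∀ ω, L ω ∈ S)
    (closure : ∀ r, ∀ k l : Fin q → ℝ, (∀ i, 0 ≤ k i) → (∀ i, 0 ≤ l i) → l ∈ S →
      ∑ j, f r j l * Ψ j k + ∑ j, f' r j k * Ψ' j l ≤ star (Ψ r) k l)
    (h : ∀ r, 0 ≤ avg (Ψ' r) L) (k : ℕ) : ∀ r, 0 ≤ avg (Ψ r) (piE L k) := by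
  induction k with
  | zero => intro r; rw [avg_piE_zero]; exact h_one r
  | succ k ih =>
    intro r
    rw [avg_piE_succ]
    have hk : Experiment q (piE L k) := hL.pi k
    have h1 : HasSum (fun p : Ω × (Fin k → Ω) =>
        ∑ j, f r j (L p.1) * Ψ j (piE L k p.2) + ∑ j, Ψ' j (L p.1) * f' r j (piE L k p.2))
        (∑ j, avg (f r j) L * avg (Ψ j) (piE L k) + ∑ j, avg (Ψ' j) L * avg (f' r j) (piE L k)) :=
      (hasSum_sum fun j _ => hasSum_mul hL hk hq (hf r j) (hΨ j)).add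
        (hasSum_sum fun j _ => hasSum_mul hL hk hq (hΨ' j) (hf' r j))
    have h2 := hasSum_star hL hk hq (hΨ r)
    have h3 := hasSum_le (fun p : Ω × (Fin k → Ω) => ?_) h1 h2
    · refine le_trans ?_ h3
      exact add_nonneg (Finset.sum_nonneg fun j _ =>
          mul_nonneg (Gauge.nonneg_avg hL (f_nonneg r j)) (ih j))
        (Finset.sum_nonneg fun j _ =>
          mul_nonneg (h j) (Gauge.nonneg_avg hk (f'_nonneg r j)))
    · have h4 := closure r (piE L k p.2) (L p.1) (hk.nonneg p.2) (hL.nonneg p.1) (hS p.1)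
      rw [star_comm (hΨ r)] at h4
      simp only [mul_comm (Ψ' _ (L p.1))]
      exact h4

/-- Abstract nonreconstruction theorem, several functionals, class of the children different from
the class of the vertices, third order strictness. -/
theorem adv_tendsto_zero_multi (hq : 2 ≤ q) {lam κ₀ : ℝ} (hlam : -(1 / ((q:ℝ) - 1)) ≤ lam)
    (hlam1 : lam ≤ 1) (hlam0 : lam ≠ 0) (hκ₀ : 0 < κ₀)
    {ι ι' : Type*} [Fintype ι] [Fintype ι'] {Φ Φ2 : (Fin q → ℝ) → ℝ} {Ψ : ι → (Fin q → ℝ) → ℝ}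
    {Ψ' : ι' → (Fin q → ℝ) → ℝ} {f : ι → ι → (Fin q → ℝ) → ℝ} {f' : ι → ι' → (Fin q → ℝ) → ℝ}
    {κ : ι → (Fin q → ℝ) → ℝ} {κ' : ι' → (Fin q → ℝ) → ℝ}
    (hΦ : Gauge q Φ) (hΦ2 : Gauge q Φ2) (hΨ : ∀ r, Gauge q (Ψ r)) (hΨ' : ∀ r, Gauge q (Ψ' r))
    (hf : ∀ r j, Gauge q (f r j)) (hf' : ∀ r j, Gauge q (f' r j)) (hκ : ∀ r, Gauge q (κ r))
    (hκ' : ∀ r, Gauge q (κ' r))
    (Φ_nonneg : ∀ k : Fin q → ℝ, (∀ i, 0 ≤ k i) → 0 ≤ Φ k)
    (Φ2_ge : ∀ k : Fin q → ℝ, (∀ i, 0 ≤ k i) → Φ k ^ 2 ≤ Φ2 k * mean k)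
    (f_nonneg : ∀ r j, ∀ k : Fin q → ℝ, (∀ i, 0 ≤ k i) → 0 ≤ f r j k)
    (f'_nonneg : ∀ r j, ∀ k : Fin q → ℝ, (∀ i, 0 ≤ k i) → 0 ≤ f' r j k)
    (κ_nonneg : ∀ r, ∀ k : Fin q → ℝ, (∀ i, 0 ≤ k i) → 0 ≤ κ r k)
    (κ'_nonneg : ∀ r, ∀ k : Fin q → ℝ, (∀ i, 0 ≤ k i) → 0 ≤ κ' r k)
    -- initial condition
    (h_init : ∀ r, ∀ s : Fin q, 0 ≤ Ψ r (fun i => if i = s then 1 else 0))
    (h_one : ∀ r, 0 ≤ Ψ r (fun _ => 1)) (h_one' : Φ (fun _ => 1) = 0)
    -- edge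
    (edgeΦ : ∀ k : Fin q → ℝ, (∀ i, 0 ≤ k i) → Φ (noise lam k) = lam ^ 2 * Φ k)
    {c : ι' → ι → ℝ} (hc : ∀ r j, 0 ≤ c r j)
    (edgeΨ : ∀ r, ∀ k : Fin q → ℝ, (∀ i, 0 ≤ k i) → ∑ j, c r j * Ψ j k ≤ Ψ' r (noise lam k))
    -- closure of the class; `l` is the child
    (closure : ∀ r, ∀ k l : Fin q → ℝ, (∀ i, 0 ≤ k i) → (∀ i, 0 ≤ l i) →
      l ∈ {l | ∃ l' : Fin q → ℝ, (∀ i, 0 ≤ l' i) ∧ l = noise lam l'} →
      ∑ j, f r j l * Ψ j k + ∑ j, f' r j k * Ψ' j l ≤ star (Ψ r) k l)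
    -- subadditivity on the class; `l` is the child
    (subadd : ∀ k l : Fin q → ℝ, (∀ i, 0 ≤ k i) → (∀ i, 0 ≤ l i) →
      l ∈ {l | ∃ l' : Fin q → ℝ, (∀ i, 0 ≤ l' i) ∧ l = noise lam l'} →
      star Φ k l ≤ mean l * Φ k + mean k * Φ l - κ₀ * (Φ k * Φ2 l + Φ2 k * Φ l)
        - ∑ r, κ r l * Ψ r k - ∑ r, κ' r k * Ψ' r l)
    -- `Φ` controls the distance to uniform
    (control : ∀ ε : ℝ, 0 < ε → ∃ M : ℝ, ∀ k : Fin q → ℝ, (∀ i, 0 ≤ k i) →
      ∑ i, |k i - mean k| ≤ ε * mean k + M * Φ k)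
    {ξ : ℕ → ℝ} (hξ : ∀ k, 0 ≤ ξ k) (hξ1 : HasSum ξ 1) {m : ℝ}
    (hξm : HasSum (fun k : ℕ => (k : ℝ) * ξ k) m) (hcrit : m * lam ^ 2 ≤ 1)
    (hbranch : ∃ k, 2 ≤ k ∧ 0 < ξ k) :
    Tendsto (adv q lam ξ) atTop (𝓝 0) := by
  have hq0 : q ≠ 0 := by omega
  have hE := experiment_lik (q := q) hq hlam hlam1 hξ hξ1
  have hN : ∀ n, Experiment q (fun ω => noise lam (lik q lam ξ n ω)) := fun n =>
    (hE n).noise hq hlam hlam1
  have hS : ∀ n, ∀ ω, noise lam (lik q lam ξ n ω) ∈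
      {l | ∃ l' : Fin q → ℝ, (∀ i, 0 ≤ l' i) ∧ l = noise lam l'} := fun n ω =>
    ⟨_, (hE n).nonneg ω, rfl⟩
  -- the classes
  have hNΨ : ∀ n, (∀ r, 0 ≤ avg (Ψ r) (lik q lam ξ n)) →
      ∀ r, 0 ≤ avg (Ψ' r) (fun ω => noise lam (lik q lam ξ n ω)) := fun n h r => by
    rw [avg_noise]
    have h1 : HasSum (fun ω => ∑ j, c r j * Ψ j (lik q lam ξ n ω))
        (∑ j, c r j * avg (Ψ j) (lik q lam ξ n)) :=
      hasSum_sum fun j _ => (((hE n).summable_gauge hq0 (hΨ j)).hasSum).mul_left (c r j)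
    have h2 : HasSum (fun ω => Ψ' r (noise lam (lik q lam ξ n ω)))
        (avg (fun k => Ψ' r (noise lam k)) (lik q lam ξ n)) :=
      ((hE n).summable_gauge hq0 ((hΨ' r).comp_noise hq hlam hlam1)).hasSum
    refine le_trans ?_ (hasSum_le (fun ω => edgeΨ r _ ((hE n).nonneg ω)) h1 h2)
    exact Finset.sum_nonneg fun j _ => mul_nonneg (hc r j) (h j)
  have hJΨ : ∀ n, (∀ r, 0 ≤ avg (Ψ r) (lik q lam ξ n)) → ∀ k r,
      0 ≤ avg (Ψ r) (piE (fun ω => noise lam (lik q lam ξ n ω)) k) := fun n h k =>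
    avg_piE_nonneg' (hN n) hq0 hΨ hΨ' hf hf' f_nonneg f'_nonneg h_one (hS n) closure (hNΨ n h) k
  have hΨn : ∀ n, ∀ r, 0 ≤ avg (Ψ r) (lik q lam ξ n) := by
    intro n
    induction n with
    | zero => intro r; exact tsum_nonneg fun s => h_init r s
    | succ n ih =>
      intro r
      refine (hasSum_avg_lik_succ hq hlam hlam1 hξ hξ1 n (hΨ r)).nonneg fun k => ?_
      exact mul_nonneg (hξ k) (hJΨ n ih k r)
  -- the recursion for `X n = avg Φ`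
  set X : ℕ → ℝ := fun n => avg Φ (lik q lam ξ n) with hX
  have hX0 : ∀ n, 0 ≤ X n := fun n => Gauge.nonneg_avg (hE n) Φ_nonneg
  have hNΦ : ∀ n, avg Φ (fun ω => noise lam (lik q lam ξ n ω)) = lam ^ 2 * X n := fun n => by
    rw [avg_noise, hX, ← avg_const_mul]
    exact avg_congr (hE n) edgeΦ
  have hJ0 : ∀ n k, 0 ≤ avg Φ (piE (fun ω => noise lam (lik q lam ξ n ω)) k) := fun n k =>
    Gauge.nonneg_avg ((hN n).pi k) Φ_nonneg
  have hY0 : ∀ n, 0 ≤ lam ^ 2 * X n := fun n => mul_nonneg (sq_nonneg _) (hX0 n)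
  have hΦ2N : ∀ n, (lam ^ 2 * X n) ^ 2 ≤ avg Φ2 (fun ω => noise lam (lik q lam ξ n ω)) :=
    fun n => by
      have := sq_avg_le (hN n) hq0 hΦ hΦ2 Φ_nonneg Φ2_ge
      rwa [hNΦ] at this
  have hΦ2J : ∀ n k, 0 ≤ avg Φ2 (piE (fun ω => noise lam (lik q lam ξ n ω)) k) := fun n k =>
    (sq_nonneg _).trans (sq_avg_le ((hN n).pi k) hq0 hΦ hΦ2 Φ_nonneg Φ2_ge)
  have hstep : ∀ n k, avg Φ (piE (fun ω => noise lam (lik q lam ξ n ω)) (k + 1)) ≤
      avg Φ (piE (fun ω => noise lam (lik q lam ξ n ω)) k) + lam ^ 2 * X n -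
        κ₀ * ((lam ^ 2 * X n) ^ 2 * avg Φ (piE (fun ω => noise lam (lik q lam ξ n ω)) k)) := by
    intro n k
    rw [avg_piE_succ]
    have hk : Experiment q (piE (fun ω => noise lam (lik q lam ξ n ω)) k) := (hN n).pi k
    have s1 := hasSum_mul (hN n) hk hq0 hΦ gauge_mean
    have s2 := hasSum_mul (hN n) hk hq0 gauge_mean hΦ
    have s3 := hasSum_mul (hN n) hk hq0 hΦ2 hΦ
    have s4 := hasSum_mul (hN n) hk hq0 hΦ hΦ2
    have s5 : HasSum (fun p : Obs q n × (Fin k → Obs q n) =>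
        ∑ r, κ r (noise lam (lik q lam ξ n p.1)) *
          Ψ r (piE (fun ω => noise lam (lik q lam ξ n ω)) k p.2))
        (∑ r, avg (κ r) (fun ω => noise lam (lik q lam ξ n ω)) *
          avg (Ψ r) (piE (fun ω => noise lam (lik q lam ξ n ω)) k)) :=
      hasSum_sum fun r _ => hasSum_mul (hN n) hk hq0 (hκ r) (hΨ r)
    have s6 : HasSum (fun p : Obs q n × (Fin k → Obs q n) =>
        ∑ r, Ψ' r (noise lam (lik q lam ξ n p.1)) *
          κ' r (piE (fun ω => noise lam (lik q lam ξ n ω)) k p.2))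
        (∑ r, avg (Ψ' r) (fun ω => noise lam (lik q lam ξ n ω)) *
          avg (κ' r) (piE (fun ω => noise lam (lik q lam ξ n ω)) k)) :=
      hasSum_sum fun r _ => hasSum_mul (hN n) hk hq0 (hΨ' r) (hκ' r)
    have h1 := hasSum_star (hN n) hk hq0 hΦ
    have h2 := (((s1.add s2).sub ((s3.add s4).mul_left κ₀)).sub s5).sub s6
    have h3 := hasSum_le (fun p => ?_) h1 h2
    · rw [hNΦ, avg_mean (hN n) hq0, avg_mean hk hq0] at h3
      have e5 : 0 ≤ ∑ r, avg (κ r) (fun ω => noise lam (lik q lam ξ n ω)) *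
          avg (Ψ r) (piE (fun ω => noise lam (lik q lam ξ n ω)) k) :=
        Finset.sum_nonneg fun r _ =>
          mul_nonneg (Gauge.nonneg_avg (hN n) (κ_nonneg r)) (hJΨ n (hΨn n) k r)
      have e6 : 0 ≤ ∑ r, avg (Ψ' r) (fun ω => noise lam (lik q lam ξ n ω)) *
          avg (κ' r) (piE (fun ω => noise lam (lik q lam ξ n ω)) k) :=
        Finset.sum_nonneg fun r _ =>
          mul_nonneg (hNΨ n (hΨn n) r) (Gauge.nonneg_avg hk (κ'_nonneg r))
      have e7 := mul_le_mul_of_nonneg_right (hΦ2N n) (hJ0 n k)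
      have e8 := mul_nonneg (hY0 n) (hΦ2J n k)
      have e9 := mul_le_mul_of_nonneg_left (add_le_add e7 e8) hκ₀.le
      linarith
    · obtain ⟨ω, ω'⟩ := p
      have h4 := subadd (piE (fun ω => noise lam (lik q lam ξ n ω)) k ω')
        (noise lam (lik q lam ξ n ω)) (hk.nonneg ω') ((hN n).nonneg ω) (hS n ω)
      rw [star_comm hΦ] at h4
      simp only [mul_comm (Ψ' _ (noise lam (lik q lam ξ n ω)))]
      linarith
  have hJ1 : ∀ n, avg Φ (piE (fun ω => noise lam (lik q lam ξ n ω)) 1) = lam ^ 2 * X n :=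
    fun n => by rw [avg_piE_one, hNΦ]
  -- at most linear in the number of children
  have hlin : ∀ n k, avg Φ (piE (fun ω => noise lam (lik q lam ξ n ω)) k) ≤
      k * (lam ^ 2 * X n) := by
    intro n k
    induction k with
    | zero => rw [avg_piE_zero, h_one']; simp
    | succ k ih =>
      have h1 := hstep n k
      have h2 := mul_nonneg hκ₀.le (mul_nonneg (sq_nonneg (lam ^ 2 * X n)) (hJ0 n k))
      push_cast
      linarith
  -- strictly less for at least two children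
  have hcub : ∀ n k, avg Φ (piE (fun ω => noise lam (lik q lam ξ n ω)) (k + 2)) ≤
      ((k + 2 : ℕ) : ℝ) * (lam ^ 2 * X n) - κ₀ * (lam ^ 2 * X n) ^ 3 := by
    intro n k
    induction k with
    | zero =>
      have h1 := hstep n 1
      rw [hJ1] at h1
      norm_num at h1 ⊢
      nlinarith
    | succ k ih =>
      have h1 := hstep n (k + 2)
      have h2 := mul_nonneg hκ₀.le (mul_nonneg (sq_nonneg (lam ^ 2 * X n)) (hJ0 n (k + 2)))
      have e : k + 1 + 2 = k + 2 + 1 := by ring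
      rw [e]
      push_cast at ih h1 ⊢
      linarith
  obtain ⟨k₀, hk₀, hξk₀⟩ := hbranch
  obtain ⟨k₁, rfl⟩ : ∃ k₁, k₀ = k₁ + 2 := ⟨k₀ - 2, by omega⟩
  have hrec : ∀ n, X (n + 1) ≤ X n - (ξ (k₁ + 2) * κ₀ * lam ^ 6) * X n ^ 3 := by
    intro n
    have h1 := hasSum_avg_lik_succ hq hlam hlam1 hξ hξ1 n hΦ
    have h2 : HasSum (fun k : ℕ => (k : ℝ) * ξ k * (lam ^ 2 * X n) -
        if k = k₁ + 2 then ξ (k₁ + 2) * (κ₀ * (lam ^ 2 * X n) ^ 3) else 0)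
        (m * (lam ^ 2 * X n) - ξ (k₁ + 2) * (κ₀ * (lam ^ 2 * X n) ^ 3)) :=
      (hξm.mul_right _).sub (hasSum_ite_eq (k₁ + 2) _)
    have h3 := hasSum_le (fun k => ?_) h1 h2
    · have h4 : m * (lam ^ 2 * X n) ≤ 1 * X n := by
        rw [← mul_assoc]
        exact mul_le_mul_of_nonneg_right hcrit (hX0 n)
      have h5 : ξ (k₁ + 2) * (κ₀ * (lam ^ 2 * X n) ^ 3) =
          (ξ (k₁ + 2) * κ₀ * lam ^ 6) * X n ^ 3 := by ring
      have h6 : X (n + 1) = avg Φ (lik q lam ξ (n + 1)) := rfl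
      rw [h6]
      linarith
    · by_cases hk : k = k₁ + 2
      · subst hk
        rw [if_pos rfl]
        have h4 := mul_le_mul_of_nonneg_left (hcub n k₁) (hξ (k₁ + 2))
        linarith
      · rw [if_neg hk]
        have h4 := mul_le_mul_of_nonneg_left (hlin n k) (hξ k)
        linarith
  have hXlim : Tendsto X atTop (𝓝 0) := by
    refine tendsto_zero_of_cubic ?_ hX0 hrec
    have : 0 < lam ^ 6 := by positivity
    positivity
  exact adv_tendsto_of_avg hq hlam hlam1 hξ hξ1 hΦ control hXlim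

end Vale.Agent.P154
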