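import Mathlib

namespace Vale.Agent.P154.Bern

/-- Polynomials in `n` variables with integer coefficients, as nested coefficient lists. -/
def Pol : ℕ → Type
  | 0 => ℤ
  | n + 1 => List (Pol n)

def Pol.zero : (n : ℕ) → Pol n
  | 0 => (0 : ℤ)
  | _ + 1 => []

/-- addition of coefficient lists -/
def addL {M : Type} (add : M → M → M) : List M → List M → List M
  | [], l => l
  | a :: l, [] => a :: l
  | a :: l, b :: m => add a b :: addL add l m

def Pol.add : (n : ℕ) → Pol n → Pol n → Pol n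
  | 0 => fun a b => Int.add a b
  | n + 1 => addL (Pol.add n)

def Pol.smul : (n : ℕ) → ℤ → Pol n → Pol n
  | 0 => fun z a => Int.mul z a
  | n + 1 => fun z l => List.map (Pol.smul n z) l

/-- coefficients of `(r + p) ^ k` -/
def powOne : ℕ → List ℤ
  | 0 => [1]
  | k + 1 => addL Int.add (powOne k ++ [0]) (0 :: powOne k)

/-- multiplication of a form by `x₀ r + x₁ p` -/
def mulLin (n : ℕ) (x₀ x₁ : ℤ) (l : List (Pol n)) : List (Pol n) :=
  addL (Pol.add n) (l.map (Pol.smul n x₀) ++ [Pol.zero n]) (Pol.zero n :: l.map (Pol.smul n x₁))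

/-- the form `∑ c_i (x₀ r + x₁ p)^i (p + r)^(m - i)` -/
def mob (n : ℕ) (x₀ x₁ : ℤ) : List (Pol n) → List (Pol n)
  | [] => []
  | c :: cs => addL (Pol.add n) ((powOne cs.length).map fun z => Pol.smul n z c)
      (mulLin n x₀ x₁ (mob n x₀ x₁ cs))

def isNonneg (c : ℤ) : Bool := decide (0 ≤ c)

/-- all Bernstein coefficients on the box are nonnegative -/
def check : (n : ℕ) → List (ℤ × ℤ) → Pol n → Bool
  | 0, _, c => isNonneg c
  | _ + 1, [], _ => false
  | n + 1, b :: bs, c => decide (b.1 < b.2) && (mob n b.1 b.2 c).all (check n bs)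

/-- evaluation -/
noncomputable def evL {M : Type} (φ : M → ℝ) (x : ℝ) : List M → ℝ
  | [] => 0
  | c :: cs => φ c + x * evL φ x cs

/-- the cast of integers to reals -/
noncomputable def toReal (c : ℤ) : ℝ := c

noncomputable def Pol.ev : (n : ℕ) → (ℕ → ℝ) → Pol n → ℝ
  | 0, _ => toReal
  | n + 1, x => fun l => evL (Pol.ev n fun i => x (i + 1)) (x 0) l

/-- homogeneous evaluation -/
noncomputable def hev {M : Type} (φ : M → ℝ) (p r : ℝ) : List M → ℝ
  | [] => 0
  | c :: cs => φ c * r ^ cs.length + p * hev φ p r cs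

def InBox : List (ℤ × ℤ) → (ℕ → ℝ) → Prop
  | [], _ => True
  | b :: bs, x => (b.1 : ℝ) ≤ x 0 ∧ x 0 ≤ b.2 ∧ InBox bs fun i => x (i + 1)

section

variable {M : Type} {φ : M → ℝ}

theorem length_addL (add : M → M → M) : ∀ l m : List M,
    (addL add l m).length = max l.length m.length
  | [], l => by simp [addL]
  | a :: l, [] => by simp [addL]
  | a :: l, b :: m => by simp [addL, length_addL add l m]

theorem evL_addL {add : M → M → M} (h : ∀ a b, φ (add a b) = φ a + φ b) (x : ℝ) :
    ∀ l m : List M, evL φ x (addL add l m) = evL φ x l + evL φ x m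
  | [], l => by simp [addL, evL]
  | a :: l, [] => by simp [addL, evL]
  | a :: l, b :: m => by
    simp only [addL, evL, evL_addL h x l m, h]
    ring

theorem hev_addL {add : M → M → M} (h : ∀ a b, φ (add a b) = φ a + φ b) (p r : ℝ) :
    ∀ l m : List M, l.length = m.length → hev φ p r (addL add l m) = hev φ p r l + hev φ p r m
  | [], [], _ => by simp [addL, hev]
  | a :: l, b :: m, e => by
    have e' : l.length = m.length := by simpa using e
    simp only [addL, hev, hev_addL h p r l m e', h, length_addL, e', max_self]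
    ring

theorem evL_map {N : Type} {ψ : N → ℝ} (f : N → M) (z : ℝ) (h : ∀ a, φ (f a) = z * ψ a) (x : ℝ) :
    ∀ l : List N, evL φ x (l.map f) = z * evL ψ x l
  | [] => by simp [evL]
  | a :: l => by simp only [List.map_cons, evL, evL_map f z h x l, h]; ring

theorem hev_map {N : Type} {ψ : N → ℝ} (f : N → M) (z : ℝ) (h : ∀ a, φ (f a) = z * ψ a) (p r : ℝ) :
    ∀ l : List N, hev φ p r (l.map f) = z * hev ψ p r l
  | [] => by simp [hev]
  | a :: l => by
    simp only [List.map_cons, hev, hev_map f z h p r l, h, List.length_map]; ring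

theorem hev_append_zero {z : M} (hz : φ z = 0) (p r : ℝ) :
    ∀ l : List M, hev φ p r (l ++ [z]) = r * hev φ p r l
  | [] => by simp [hev, hz]
  | a :: l => by
    simp only [List.cons_append, hev, hev_append_zero hz p r l, List.length_append,
      List.length_cons, List.length_nil, zero_add, pow_succ]
    ring

theorem hev_nonneg {p r : ℝ} (hp : 0 ≤ p) (hr : 0 ≤ r) :
    ∀ l : List M, (∀ a ∈ l, 0 ≤ φ a) → 0 ≤ hev φ p r l
  | [], _ => by simp [hev]
  | a :: l, h => by
    simp only [hev]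
    have h1 := h a (by simp)
    have h2 := hev_nonneg hp hr l fun b hb => h b (by simp [hb])
    positivity

end

theorem toReal_nonneg {c : ℤ} (h : isNonneg c = true) : 0 ≤ toReal c :=
  Int.cast_nonneg (R := ℝ) (of_decide_eq_true h)

theorem Pol.ev_zero (n : ℕ) (x : ℕ → ℝ) : Pol.ev n x (Pol.zero n) = 0 := by
  cases n with
  | zero => exact Int.cast_zero
  | succ n => simp [Pol.ev, Pol.zero, evL]

theorem Pol.ev_add (n : ℕ) : ∀ (x : ℕ → ℝ) (a b : Pol n),
    Pol.ev n x (Pol.add n a b) = Pol.ev n x a + Pol.ev n x b := by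
  induction n with
  | zero =>
    intro x a b
    exact Int.cast_add (R := ℝ) a b
  | succ n ih =>
    intro x a b
    simp only [Pol.ev, Pol.add]
    exact evL_addL (ih _) _ a b

theorem Pol.ev_smul (n : ℕ) : ∀ (x : ℕ → ℝ) (z : ℤ) (a : Pol n),
    Pol.ev n x (Pol.smul n z a) = z * Pol.ev n x a := by
  induction n with
  | zero =>
    intro x z a
    exact Int.cast_mul (α := ℝ) z a
  | succ n ih =>
    intro x z a
    simp only [Pol.ev, Pol.smul]
    exact evL_map _ _ (fun c => ih _ z c) _ a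

theorem length_powOne : ∀ k, (powOne k).length = k + 1
  | 0 => rfl
  | k + 1 => by simp [powOne, length_addL, length_powOne k]

theorem hev_powOne (p r : ℝ) : ∀ k, hev (fun z : ℤ => (z : ℝ)) p r (powOne k) = (p + r) ^ k
  | 0 => by simp [powOne, hev]
  | k + 1 => by
    rw [powOne, hev_addL (fun a b => by exact Int.cast_add a b) p r _ _ (by simp)]
    rw [hev_append_zero (by simp)]
    simp only [hev, hev_powOne p r k, Int.cast_zero, zero_mul, zero_add]
    ring

theorem length_mob (n : ℕ) (x₀ x₁ : ℤ) : ∀ l, (mob n x₀ x₁ l).length = l.length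
  | [] => rfl
  | c :: cs => by
    simp [mob, mulLin, length_addL, length_powOne, length_mob n x₀ x₁ cs]

theorem hev_mob (n : ℕ) (x : ℕ → ℝ) (x₀ x₁ : ℤ) (p r w y : ℝ) (hw : p + r = w)
    (hy : x₀ * r + x₁ * p = y * w) : ∀ l : List (Pol n),
    hev (Pol.ev n x) p r (mob n x₀ x₁ l) * w = w ^ l.length * evL (Pol.ev n x) y l
  | [] => by simp [mob, hev, evL]
  | c :: cs => by
    have ih := hev_mob n x x₀ x₁ p r w y hw hy cs
    rw [mob, hev_addL (Pol.ev_add n x) p r _ _ (by
      simp [mulLin, length_addL, length_powOne, length_mob n x₀ x₁ cs])]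
    rw [hev_map (ψ := fun z : ℤ => (z : ℝ)) (fun z => Pol.smul n z c) (Pol.ev n x c)
      (fun z => by rw [Pol.ev_smul]; ring), hev_powOne, mulLin,
      hev_addL (Pol.ev_add n x) p r _ _ (by simp), hev_append_zero (Pol.ev_zero n x),
      hev_map _ _ (fun a => Pol.ev_smul n x x₀ a)]
    simp only [hev, Pol.ev_zero, zero_mul, zero_add, evL, List.length_cons]
    rw [hev_map _ _ (fun a => Pol.ev_smul n x x₁ a), hw]
    have e : (Pol.ev n x c * w ^ cs.length + (r * (x₀ * hev (Pol.ev n x) p r (mob n x₀ x₁ cs)) +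
        p * (x₁ * hev (Pol.ev n x) p r (mob n x₀ x₁ cs)))) * w =
        Pol.ev n x c * w ^ (cs.length + 1) + (x₀ * r + x₁ * p) *
          (hev (Pol.ev n x) p r (mob n x₀ x₁ cs) * w) := by ring
    rw [e, ih, hy]
    ring

/-- Soundness of the Bernstein test. -/
theorem check_sound : ∀ (n : ℕ) (bs : List (ℤ × ℤ)) (c : Pol n) (x : ℕ → ℝ),
    check n bs c = true → InBox bs x → 0 ≤ Pol.ev n x c
  | 0, _, c, x, h, _ => by
    exact toReal_nonneg h
  | _ + 1, [], _, _, h, _ => by simp [check] at h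
  | n + 1, b :: bs, c, x, h, hb => by
    simp only [check, Bool.and_eq_true, decide_eq_true_eq, List.all_eq_true] at h
    obtain ⟨h1, h2⟩ := h
    obtain ⟨hb1, hb2, hb3⟩ := hb
    have hw : (0 : ℝ) < (b.2 : ℝ) - b.1 := by
      have : (b.1 : ℝ) < b.2 := by exact_mod_cast h1
      linarith
    have key := hev_mob n (fun i => x (i + 1)) b.1 b.2 (x 0 - b.1) (b.2 - x 0) (b.2 - b.1) (x 0)
      (by ring) (by ring) c
    have h3 : 0 ≤ hev (Pol.ev n fun i => x (i + 1)) (x 0 - b.1) (b.2 - x 0) (mob n b.1 b.2 c) :=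
      hev_nonneg (by linarith) (by linarith) _ fun a ha =>
        check_sound n bs a _ (h2 a ha) hb3
    have h4 : 0 ≤ ((b.2 : ℝ) - b.1) ^ List.length c * evL (Pol.ev n fun i => x (i + 1)) (x 0) c := by
      rw [← key]; positivity
    have h5 : (0 : ℝ) < ((b.2 : ℝ) - b.1) ^ List.length c := pow_pos hw _
    simp only [Pol.ev]
    exact nonneg_of_mul_nonneg_right h4 h5

/-- bisection of the `i`-th side -/
def leftBox : ℕ → List (ℤ × ℤ) → List (ℤ × ℤ)
  | _, [] => []
  | 0, b :: bs => (b.1, (b.1 + b.2) / 2) :: bs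
  | i + 1, b :: bs => b :: leftBox i bs

def rightBox : ℕ → List (ℤ × ℤ) → List (ℤ × ℤ)
  | _, [] => []
  | 0, b :: bs => ((b.1 + b.2) / 2, b.2) :: bs
  | i + 1, b :: bs => b :: rightBox i bs

theorem inBox_split : ∀ (i : ℕ) (bs : List (ℤ × ℤ)) (x : ℕ → ℝ), InBox bs x →
    InBox (leftBox i bs) x ∨ InBox (rightBox i bs) x
  | _, [], _, _ => by left; simp [leftBox, InBox]
  | 0, b :: bs, x, h => by
    obtain ⟨h1, h2, h3⟩ := h
    rcases le_total (x 0) (((b.1 + b.2) / 2 : ℤ) : ℝ) with h | h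
    · exact Or.inl ⟨h1, h, h3⟩
    · exact Or.inr ⟨h, h2, h3⟩
  | i + 1, b :: bs, x, h => by
    obtain ⟨h1, h2, h3⟩ := h
    rcases inBox_split i bs _ h3 with h | h
    · exact Or.inl ⟨h1, h2, h⟩
    · exact Or.inr ⟨h1, h2, h⟩

/-- a bisection tree; `node i` bisects the `i`-th side -/
inductive Tree where
  | leaf : Tree
  | node : ℕ → Tree → Tree → Tree

def checkT (n : ℕ) (c : Pol n) : Tree → List (ℤ × ℤ) → Bool
  | .leaf, bs => check n bs c
  | .node i s t, bs => checkT n c s (leftBox i bs) && checkT n c t (rightBox i bs)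

theorem checkT_sound (n : ℕ) (c : Pol n) : ∀ (t : Tree) (bs : List (ℤ × ℤ)) (x : ℕ → ℝ),
    checkT n c t bs = true → InBox bs x → 0 ≤ Pol.ev n x c
  | .leaf, bs, x, h, hb => check_sound n bs c x h hb
  | .node i s t, bs, x, h, hb => by
    simp only [checkT, Bool.and_eq_true] at h
    rcases inBox_split i bs x hb with h' | h'
    · exact checkT_sound n c s _ x h.1 h'
    · exact checkT_sound n c t _ x h.2 h'

end Vale.Agent.P154.Bern
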