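import Vale.Agent.P154.Abstract

open Filter Topology

namespace Vale.Agent.P154

variable {q : ℕ}

/-- sublinear functionals of the likelihood vector -/
structure Sublin (q : ℕ) (F : (Fin q → ℝ) → ℝ) : Prop where
  homog : ∀ (c : ℝ) (k : Fin q → ℝ), 0 ≤ c → (∀ i, 0 ≤ k i) → F (fun i => c * k i) = c * F k
  subadd : ∀ k l : Fin q → ℝ, (∀ i, 0 ≤ k i) → (∀ i, 0 ≤ l i) → F (fun i => k i + l i) ≤ F k + F l
  bdd : ∃ C : ℝ, ∀ k : Fin q → ℝ, (∀ i, 0 ≤ k i) → |F k| ≤ C * mean k

theorem Experiment.summable_of_bdd {Ω : Type*} {L : Ω → Fin q → ℝ} (hL : Experiment q L)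
    (hq : q ≠ 0) {F : (Fin q → ℝ) → ℝ}
    (hF : ∃ C : ℝ, ∀ k : Fin q → ℝ, (∀ i, 0 ≤ k i) → |F k| ≤ C * mean k) :
    Summable (fun ω => F (L ω)) := by
  obtain ⟨C, hC⟩ := hF
  exact Summable.of_norm_bounded ((hL.hasSum_mean hq).summable.mul_left C)
    fun ω => hC _ (hL.nonneg ω)

/-- `L` is less informative than `L'`. -/
def Blackwell {Ω Ω' : Type*} (L : Ω → Fin q → ℝ) (L' : Ω' → Fin q → ℝ) : Prop :=
  ∀ F : (Fin q → ℝ) → ℝ, Sublin q F → avg F L ≤ avg F L'

theorem Sublin.comp_noise (hq : 2 ≤ q) {lam : ℝ} (hlam : -(1 / ((q : ℝ) - 1)) ≤ lam)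
    (hlam1 : lam ≤ 1) {F : (Fin q → ℝ) → ℝ} (hF : Sublin q F) :
    Sublin q (fun k => F (noise lam k)) where
  homog a k ha hk := by
    rw [← hF.homog a _ ha (noise_nonneg hq hlam hlam1 hk)]
    congr 1
    funext i
    simp only [noise, mean_mul_left]
    ring
  subadd k l hk hl := by
    have h := hF.subadd _ _ (noise_nonneg hq hlam hlam1 hk) (noise_nonneg hq hlam hlam1 hl)
    convert h using 2
    funext i
    simp only [noise, mean, Finset.sum_add_distrib]
    ring
  bdd := by
    obtain ⟨C, hC⟩ := hF.bdd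
    exact ⟨C, fun k hk => by
      have := hC (noise lam k) (noise_nonneg hq hlam hlam1 hk)
      rwa [mean_noise (by omega)] at this⟩

/-- multiplication by a fixed nonnegative vector -/
theorem Sublin.comp_mul {F : (Fin q → ℝ) → ℝ} (hF : Sublin q F) {l : Fin q → ℝ}
    (hl : ∀ i, 0 ≤ l i) : Sublin q (fun k => F (fun i => k i * l i)) where
  homog a k ha hk := by
    rw [← hF.homog a _ ha (fun i => mul_nonneg (hk i) (hl i))]
    congr 1
    funext i
    ring
  subadd k k' hk hk' := by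
    have h := hF.subadd _ _ (fun i => mul_nonneg (hk i) (hl i)) (fun i => mul_nonneg (hk' i) (hl i))
    convert h using 2
    funext i
    ring
  bdd := by
    obtain ⟨C, hC⟩ := hF.bdd
    refine ⟨|C| * ∑ j, l j, fun k hk => ?_⟩
    have h1 := hC (fun i => k i * l i) (fun i => mul_nonneg (hk i) (hl i))
    have h2 : mean (fun i => k i * l i) ≤ (∑ j, l j) * mean k := by
      unfold mean
      rw [← mul_div_assoc]
      refine div_le_div_of_nonneg_right ?_ (Nat.cast_nonneg q)
      rw [Finset.mul_sum]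
      refine Finset.sum_le_sum fun i _ => ?_
      rw [mul_comm]
      exact mul_le_mul_of_nonneg_right
        (Finset.single_le_sum (fun j _ => hl j) (Finset.mem_univ i)) (hk i)
    have h3 : 0 ≤ mean (fun i => k i * l i) := mean_nonneg fun i => mul_nonneg (hk i) (hl i)
    calc |F fun i => k i * l i| ≤ C * mean (fun i => k i * l i) := h1
      _ ≤ |C| * mean (fun i => k i * l i) := mul_le_mul_of_nonneg_right (le_abs_self C) h3
      _ ≤ |C| * ((∑ j, l j) * mean k) := mul_le_mul_of_nonneg_left h2 (abs_nonneg C)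
      _ = |C| * (∑ j, l j) * mean k := by ring

theorem Sublin.sum_le {F : (Fin q → ℝ) → ℝ} (hF : Sublin q F) {k : Fin q → ℝ}
    (hk : ∀ i, 0 ≤ k i) : F k ≤ ∑ s, k s * F (fun i => if i = s then 1 else 0) := by
  have h0 : F (fun _ => 0) = 0 := by
    have := hF.homog 0 (fun _ => 1) le_rfl (fun _ => zero_le_one)
    simpa using this
  have key : ∀ S : Finset (Fin q), F (fun i => if i ∈ S then k i else 0) ≤
      ∑ s ∈ S, k s * F (fun i => if i = s then 1 else 0) := by
    intro S
    induction S using Finset.induction_on with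
    | empty => simp [h0]
    | insert s S hs ih =>
      rw [Finset.sum_insert hs]
      have e1 : (fun i => if i ∈ insert s S then k i else 0) =
          fun i => k s * (if i = s then 1 else 0) + (if i ∈ S then k i else 0) := by
        funext i
        by_cases h : i = s
        · subst h; simp [hs]
        · simp [h]
      have e2 := hF.homog (k s) (fun i => if i = s then 1 else 0) (hk s)
        (fun i => by split_ifs <;> norm_num)
      rw [e1, ← e2]
      refine (hF.subadd _ _ (fun i => mul_nonneg (hk s) (by split_ifs <;> norm_num))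
        (fun i => by split_ifs; exacts [hk i, le_rfl])).trans ?_
      exact add_le_add le_rfl ih
  have := key Finset.univ
  simpa using this

theorem Blackwell.mul {Ω Ω' Ω₂ Ω₂' : Type*} {L : Ω → Fin q → ℝ} {L' : Ω' → Fin q → ℝ}
    {M : Ω₂ → Fin q → ℝ} {M' : Ω₂' → Fin q → ℝ} (hq : q ≠ 0) (hL : Experiment q L)
    (hL' : Experiment q L') (hM : Experiment q M) (hM' : Experiment q M') (h : Blackwell L L')
    (h' : Blackwell M M') : Blackwell (mulE L M) (mulE L' M') := by
  intro F hF
  have s1 : Summable fun p : Ω × Ω₂ => F (mulE L M p) :=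
    (hL.mul hM).summable_of_bdd hq hF.bdd
  have s2 : Summable fun p : Ω' × Ω₂ => F (mulE L' M p) :=
    (hL'.mul hM).summable_of_bdd hq hF.bdd
  have s3 : Summable fun p : Ω' × Ω₂' => F (mulE L' M' p) :=
    (hL'.mul hM').summable_of_bdd hq hF.bdd
  have h1 : avg F (mulE L M) ≤ avg F (mulE L' M) := by
    unfold avg
    have s1' : Summable fun p : Ω₂ × Ω => F (mulE L M p.swap) := (Equiv.prodComm Ω₂ Ω).summable_iff.2 s1
    have s2' : Summable fun p : Ω₂ × Ω' => F (mulE L' M p.swap) :=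
      (Equiv.prodComm Ω₂ Ω').summable_iff.2 s2
    rw [← (Equiv.prodComm Ω₂ Ω).tsum_eq, ← (Equiv.prodComm Ω₂ Ω').tsum_eq]
    change ∑' p : Ω₂ × Ω, F (mulE L M p.swap) ≤ ∑' p : Ω₂ × Ω', F (mulE L' M p.swap)
    rw [s1'.tsum_prod, s2'.tsum_prod]
    refine Summable.tsum_le_tsum (fun ω => ?_) s1'.prod s2'.prod
    exact h _ (hF.comp_mul (hM.nonneg ω))
  have h2 : avg F (mulE L' M) ≤ avg F (mulE L' M') := by
    unfold avg
    rw [s2.tsum_prod, s3.tsum_prod]
    refine Summable.tsum_le_tsum (fun ω => ?_) s2.prod s3.prod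
    have := h' _ (hF.comp_mul (hL'.nonneg ω))
    simp only [mul_comm _ (L' ω _)] at this
    exact this
  exact h1.trans h2

theorem Blackwell.pi {Ω Ω' : Type*} {L : Ω → Fin q → ℝ} {L' : Ω' → Fin q → ℝ} (hq : q ≠ 0)
    (hL : Experiment q L) (hL' : Experiment q L') (h : Blackwell L L') (k : ℕ) :
    Blackwell (piE L k) (piE L' k) := by
  induction k with
  | zero => intro F _; rw [avg_piE_zero, avg_piE_zero]
  | succ k ih =>
    intro F hF
    rw [avg_piE_succ, avg_piE_succ]
    exact h.mul hq hL hL' (hL.pi k) (hL'.pi k) ih F hF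

theorem Blackwell.noise (hq : 2 ≤ q) {lam : ℝ} (hlam : -(1 / ((q : ℝ) - 1)) ≤ lam)
    (hlam1 : lam ≤ 1) {Ω Ω' : Type*} {L : Ω → Fin q → ℝ} {L' : Ω' → Fin q → ℝ}
    (h : Blackwell L L') :
    Blackwell (fun ω => P154.noise lam (L ω)) (fun ω => P154.noise lam (L' ω)) := fun _ hF =>
  h _ (hF.comp_noise hq hlam hlam1)

theorem hasSum_avg_lik_succ' (hq : 2 ≤ q) {lam : ℝ} (hlam : -(1 / ((q : ℝ) - 1)) ≤ lam)
    (hlam1 : lam ≤ 1) {ξ : ℕ → ℝ} (hξ : ∀ k, 0 ≤ ξ k) (hξ1 : HasSum ξ 1) (n : ℕ)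
    {F : (Fin q → ℝ) → ℝ} (hF : Sublin q F) :
    HasSum (fun k => ξ k * avg F (piE (fun ω => noise lam (lik q lam ξ n ω)) k))
      (avg F (lik q lam ξ (n + 1))) := by
  have hn := experiment_lik hq hlam hlam1 hξ hξ1 n
  have h1 := ((experiment_lik hq hlam hlam1 hξ hξ1 (n + 1)).summable_of_bdd (by omega)
    hF.bdd).hasSum
  refine HasSum.sigma (β := ℕ) (γ := fun k => Fin k → Obs q n) h1 fun k => ?_
  have h2 := ((((hn.noise hq hlam hlam1).pi k).summable_of_bdd (by omega)
    hF.bdd).hasSum).mul_left (ξ k)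
  have h3 : (fun ω : Fin k → Obs q n => F (lik q lam ξ (n + 1) ⟨k, ω⟩)) =
      fun ω => ξ k * F (fun i => ∏ j, noise lam (lik q lam ξ n (ω j)) i) := by
    funext ω
    rw [lik_succ]
    exact hF.homog (ξ k) _ (hξ k)
      fun i => Finset.prod_nonneg fun j _ => noise_nonneg hq hlam hlam1 (hn.nonneg _) i
  rw [h3]
  exact h2

/-- Each level is less informative than the previous one. -/
theorem blackwell_lik (hq : 2 ≤ q) {lam : ℝ} (hlam : -(1 / ((q : ℝ) - 1)) ≤ lam)
    (hlam1 : lam ≤ 1) {ξ : ℕ → ℝ} (hξ : ∀ k, 0 ≤ ξ k) (hξ1 : HasSum ξ 1) (n : ℕ) :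
    Blackwell (lik q lam ξ (n + 1)) (lik q lam ξ n) := by
  have hE := experiment_lik (q := q) hq hlam hlam1 hξ hξ1
  induction n with
  | zero =>
    intro F hF
    have h1 : avg F (lik q lam ξ 0) = ∑ s : Fin q, F (fun i => if i = s then 1 else 0) := by
      change (∑' s : Fin q, F (fun i => if i = s then (1 : ℝ) else 0)) = _
      exact tsum_fintype _
    have h2 : HasSum (fun ω => ∑ s, lik q lam ξ 1 ω s * F (fun i => if i = s then 1 else 0))
        (∑ s : Fin q, 1 * F (fun i => if i = s then 1 else 0)) :=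
      hasSum_sum fun s _ => ((hE 1).hasSum s).mul_right _
    simp only [one_mul] at h2
    rw [h1]
    exact hasSum_le (fun ω => hF.sum_le ((hE 1).nonneg ω))
      ((hE 1).summable_of_bdd (by omega) hF.bdd).hasSum h2
  | succ n ih =>
    intro F hF
    have hb := (ih.noise hq hlam hlam1).pi (by omega) ((hE (n + 1)).noise hq hlam hlam1)
      ((hE n).noise hq hlam hlam1)
    exact hasSum_le (fun k => mul_le_mul_of_nonneg_left (hb k F hF) (hξ k))
      (hasSum_avg_lik_succ' hq hlam hlam1 hξ hξ1 (n + 1) hF)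
      (hasSum_avg_lik_succ' hq hlam hlam1 hξ hξ1 n hF)

theorem sublin_dist (hq : q ≠ 0) : Sublin q (fun k => ∑ i, |k i - mean k|) where
  homog c k hc _ := by
    rw [Finset.mul_sum]
    refine Finset.sum_congr rfl fun i _ => ?_
    rw [mean_mul_left, ← mul_sub, abs_mul, abs_of_nonneg hc]
  subadd k l _ _ := by
    rw [← Finset.sum_add_distrib]
    refine Finset.sum_le_sum fun i _ => ?_
    have : mean (fun i => k i + l i) = mean k + mean l := by
      unfold mean
      rw [Finset.sum_add_distrib, add_div]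
    rw [this, show k i + l i - (mean k + mean l) = (k i - mean k) + (l i - mean l) by ring]
    exact abs_add_le _ _
  bdd := by
    refine ⟨2 * q, fun k hk => ?_⟩
    have hq0 : (0 : ℝ) < q := by exact_mod_cast Nat.pos_of_ne_zero hq
    have hm0 := mean_nonneg hk
    rw [abs_of_nonneg (Finset.sum_nonneg fun i _ => abs_nonneg _)]
    calc ∑ i, |k i - mean k| ≤ ∑ i, (k i + mean k) :=
          Finset.sum_le_sum fun i _ => by
            rw [abs_le]
            have := hk i
            constructor <;> linarith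
      _ = 2 * q * mean k := by
          rw [Finset.sum_add_distrib, Finset.sum_const, Finset.card_univ, Fintype.card_fin,
            nsmul_eq_mul]
          unfold mean
          field_simp
          ring

/-- `a_n` is nonincreasing. -/
theorem adv_antitone (hq : 2 ≤ q) {lam : ℝ} (hlam : -(1 / ((q : ℝ) - 1)) ≤ lam)
    (hlam1 : lam ≤ 1) {ξ : ℕ → ℝ} (hξ : ∀ k, 0 ≤ ξ k) (hξ1 : HasSum ξ 1) :
    Antitone (adv q lam ξ) := by
  refine antitone_nat_of_succ_le fun n => ?_
  rw [adv_eq hq hlam hlam1 hξ hξ1, adv_eq hq hlam hlam1 hξ hξ1]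
  exact mul_le_mul_of_nonneg_left (blackwell_lik hq hlam hlam1 hξ hξ1 n _ (sublin_dist (by omega)))
    (by positivity)

end Vale.Agent.P154
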