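import Mathlib

open Filter Topology

namespace Vale.Agent.P154

/-- The `q`-state Potts channel `P_lam(j | i) = lam 1_{i = j} + (1 - lam) / q`. -/
noncomputable def potts (q : ℕ) (lam : ℝ) (i j : Fin q) : ℝ :=
  lam * (if i = j then 1 else 0) + (1 - lam) / q

/-- What the observer sees when the spins of level `n` are revealed: at level `0` the spin of the
root; otherwise the number `k` of children of the root and, for each child, what is seen in its
subtree at depth `n`. -/
def Obs (q : ℕ) : ℕ → Type
  | 0 => Fin q
  | n + 1 => Σ k : ℕ, (Fin k → Obs q n)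

/-- The probability of the observation given that the root spin is `i`, when offspring numbers are
independent with weights `ξ` and every edge passes the spin through the Potts channel. -/
noncomputable def lik (q : ℕ) (lam : ℝ) (ξ : ℕ → ℝ) : (n : ℕ) → Obs q n → Fin q → ℝ
  | 0, (s : Fin q), i => if i = s then 1 else 0
  | n + 1, ⟨k, ω⟩, i => ξ k * ∏ j, ∑ s, potts q lam i s * lik q lam ξ n (ω j) s

/-- The probability of the observation (the root spin is uniform). -/
noncomputable def prob (q : ℕ) (lam : ℝ) (ξ : ℕ → ℝ) (n : ℕ) (ω : Obs q n) : ℝ :=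
  (∑ i, lik q lam ξ n ω i) / q

/-- `a_n`: the expected total variation distance between the posterior law of the root spin and the
uniform law. -/
noncomputable def adv (q : ℕ) (lam : ℝ) (ξ : ℕ → ℝ) (n : ℕ) : ℝ :=
  ∑' ω : Obs q n, prob q lam ξ n ω *
    (1 / 2 * ∑ i, |lik q lam ξ n ω i / (q * prob q lam ξ n ω) - 1 / q|)

/-- Offspring weights of the `d`-ary tree. -/
def regular (d : ℕ) (k : ℕ) : ℝ := if k = d then 1 else 0

/-- Offspring weights of the Galton-Watson tree with Poisson offspring of mean `d`. -/
noncomputable def poisson (d : ℝ) (k : ℕ) : ℝ := Real.exp (-d) * d ^ k / k.factorial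

end Vale.Agent.P154
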