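import Vale.Agent.P154.Defs

open Filter Topology

namespace Vale.Agent.P154

variable {q : ℕ}

/-- average of the coordinates -/
noncomputable def mean (k : Fin q → ℝ) : ℝ := (∑ i, k i) / q

/-- noise operator `(Λ k)_i = lam k_i + (1 - lam) mean k` -/
noncomputable def noise (lam : ℝ) (k : Fin q → ℝ) : Fin q → ℝ := fun i => lam * k i + (1 - lam) * mean k

/-- symmetric positively homogeneous functions, bounded by a multiple of the mean -/
structure Gauge (q : ℕ) (Φ : (Fin q → ℝ) → ℝ) : Prop where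
  homog : ∀ (c : ℝ) (k : Fin q → ℝ), 0 ≤ c → (∀ i, 0 ≤ k i) → Φ (fun i => c * k i) = c * Φ k
  symm : ∀ (π : Equiv.Perm (Fin q)) (k : Fin q → ℝ), Φ (fun i => k (π i)) = Φ k
  bdd : ∃ C : ℝ, ∀ k : Fin q → ℝ, (∀ i, 0 ≤ k i) → |Φ k| ≤ C * mean k

/-- average over relative permutations of `Φ (k · π l)` -/
noncomputable def star (Φ : (Fin q → ℝ) → ℝ) (k l : Fin q → ℝ) : ℝ :=
  (∑ π : Equiv.Perm (Fin q), Φ (fun i => k i * l (π i))) / (q.factorial : ℝ)

theorem mean_nonneg {k : Fin q → ℝ} (hk : ∀ i, 0 ≤ k i) : 0 ≤ mean k :=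
  div_nonneg (Finset.sum_nonneg fun i _ => hk i) (Nat.cast_nonneg q)

theorem mean_perm (π : Equiv.Perm (Fin q)) (k : Fin q → ℝ) : mean (fun i => k (π i)) = mean k := by
  unfold mean
  rw [Equiv.sum_comp π k]

theorem mean_mul_left (c : ℝ) (k : Fin q → ℝ) : mean (fun i => c * k i) = c * mean k := by
  unfold mean
  rw [← Finset.mul_sum, mul_div_assoc]

theorem gauge_mean : Gauge q mean where
  homog c k _ _ := mean_mul_left c k
  symm := mean_perm
  bdd := ⟨1, fun k hk => by rw [abs_of_nonneg (mean_nonneg hk), one_mul]⟩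

theorem Gauge.const_mul {F : (Fin q → ℝ) → ℝ} (hF : Gauge q F) (c : ℝ) :
    Gauge q (fun k => c * F k) where
  homog a k ha hk := by rw [hF.homog a k ha hk]; ring
  symm π k := by rw [hF.symm π k]
  bdd := by
    obtain ⟨C, hC⟩ := hF.bdd
    exact ⟨|c| * C, fun k hk => by
      rw [abs_mul, mul_assoc]
      exact mul_le_mul_of_nonneg_left (hC k hk) (abs_nonneg c)⟩

theorem Gauge.neg {F : (Fin q → ℝ) → ℝ} (hF : Gauge q F) : Gauge q (fun k => -F k) := by
  simpa using hF.const_mul (-1)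

theorem Gauge.add {F G : (Fin q → ℝ) → ℝ} (hF : Gauge q F) (hG : Gauge q G) :
    Gauge q (fun k => F k + G k) where
  homog a k ha hk := by rw [hF.homog a k ha hk, hG.homog a k ha hk]; ring
  symm π k := by rw [hF.symm π k, hG.symm π k]
  bdd := by
    obtain ⟨C, hC⟩ := hF.bdd
    obtain ⟨D, hD⟩ := hG.bdd
    exact ⟨C + D, fun k hk => (abs_add_le _ _).trans (by
      rw [add_mul]; exact add_le_add (hC k hk) (hD k hk))⟩

theorem Gauge.sub {F G : (Fin q → ℝ) → ℝ} (hF : Gauge q F) (hG : Gauge q G) :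
    Gauge q (fun k => F k - G k) := by
  simpa [sub_eq_add_neg] using hF.add hG.neg

theorem noise_perm (lam : ℝ) (π : Equiv.Perm (Fin q)) (k : Fin q → ℝ) :
    noise lam (fun i => k (π i)) = fun i => noise lam k (π i) := by
  funext i
  simp only [noise, mean_perm]

theorem mean_noise (hq : q ≠ 0) (lam : ℝ) (k : Fin q → ℝ) : mean (noise lam k) = mean k := by
  have hq' : (q : ℝ) ≠ 0 := by exact_mod_cast hq
  unfold noise
  have : mean (fun i => lam * k i + (1 - lam) * mean k) =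
      (lam * ∑ i, k i + q * ((1 - lam) * mean k)) / q := by
    unfold mean
    rw [Finset.sum_add_distrib, ← Finset.mul_sum]
    simp
  rw [this]
  have h2 : ∑ i, k i = q * mean k := by
    unfold mean; field_simp
  rw [h2]
  field_simp
  ring

theorem noise_nonneg (hq : 2 ≤ q) {lam : ℝ} (hlam : -(1 / ((q : ℝ) - 1)) ≤ lam) (hlam1 : lam ≤ 1)
    {k : Fin q → ℝ} (hk : ∀ i, 0 ≤ k i) (i : Fin q) : 0 ≤ noise lam k i := by
  have hq2 : (2 : ℝ) ≤ q := by exact_mod_cast hq
  have hq0 : (0 : ℝ) < q := by linarith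
  have hq1 : (0 : ℝ) < (q : ℝ) - 1 := by linarith
  have h1 : k i ≤ ∑ j, k j := Finset.single_le_sum (fun j _ => hk j) (Finset.mem_univ i)
  have h2 : 0 ≤ 1 + ((q : ℝ) - 1) * lam := by
    have := mul_le_mul_of_nonneg_left hlam hq1.le
    have h3 : ((q : ℝ) - 1) * -(1 / ((q : ℝ) - 1)) = -1 := by field_simp
    linarith
  have h4 : noise lam k i =
      ((1 + ((q : ℝ) - 1) * lam) * k i + (1 - lam) * ((∑ j, k j) - k i)) / q := by
    unfold noise mean
    field_simp
    ring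
  rw [h4]
  refine div_nonneg (add_nonneg (mul_nonneg h2 (hk i)) (mul_nonneg (by linarith) (by linarith))) hq0.le

theorem Gauge.comp_noise (hq : 2 ≤ q) {lam : ℝ} (hlam : -(1 / ((q : ℝ) - 1)) ≤ lam)
    (hlam1 : lam ≤ 1) {F : (Fin q → ℝ) → ℝ} (hF : Gauge q F) :
    Gauge q (fun k => F (noise lam k)) where
  homog a k ha hk := by
    rw [← hF.homog a _ ha (noise_nonneg hq hlam hlam1 hk)]
    congr 1
    funext i
    simp only [noise, mean_mul_left]
    ring
  symm π k := by rw [noise_perm, hF.symm]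
  bdd := by
    obtain ⟨C, hC⟩ := hF.bdd
    exact ⟨C, fun k hk => by
      have := hC (noise lam k) (noise_nonneg hq hlam hlam1 hk)
      rwa [mean_noise (by omega)] at this⟩

theorem sum_potts (lam : ℝ) (k : Fin q → ℝ) (i : Fin q) :
    ∑ s, potts q lam i s * k s = noise lam k i := by
  unfold potts noise mean
  simp only [add_mul, Finset.sum_add_distrib, mul_assoc, ite_mul, one_mul, zero_mul]
  rw [← Finset.mul_sum, ← Finset.mul_sum]
  simp
  ring

/-- A symmetric experiment on the `q`-valued spin: `L ω i` is the probability to observe `ω` when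
the spin is `i`. -/
structure Experiment (q : ℕ) {Ω : Type*} (L : Ω → Fin q → ℝ) : Prop where
  nonneg : ∀ ω i, 0 ≤ L ω i
  hasSum : ∀ i, HasSum (fun ω => L ω i) 1
  symm : ∀ π : Equiv.Perm (Fin q), ∃ e : Ω ≃ Ω, ∀ ω i, L (e ω) i = L ω (π i)

namespace Experiment

variable {Ω Ω' : Type*} {L : Ω → Fin q → ℝ} {L' : Ω' → Fin q → ℝ}

theorem hasSum_mean (hL : Experiment q L) (hq : q ≠ 0) : HasSum (fun ω => mean (L ω)) 1 := by
  have hq' : (q : ℝ) ≠ 0 := by exact_mod_cast hq
  have h := (hasSum_sum (s := Finset.univ) fun i _ => hL.hasSum i).div_const (q : ℝ)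
  simpa [mean, hq'] using h

theorem summable_gauge (hL : Experiment q L) (hq : q ≠ 0) {F : (Fin q → ℝ) → ℝ} (hF : Gauge q F) :
    Summable (fun ω => F (L ω)) := by
  obtain ⟨C, hC⟩ := hF.bdd
  exact Summable.of_norm_bounded ((hL.hasSum_mean hq).summable.mul_left C)
    fun ω => hC _ (hL.nonneg ω)

/-- The experiment seen through the channel. -/
theorem noise (hL : Experiment q L) (hq : 2 ≤ q) {lam : ℝ} (hlam : -(1 / ((q : ℝ) - 1)) ≤ lam)
    (hlam1 : lam ≤ 1) : Experiment q (fun ω => P154.noise lam (L ω)) where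
  nonneg ω i := noise_nonneg hq hlam hlam1 (hL.nonneg ω) i
  hasSum i := by
    have h := ((hL.hasSum i).mul_left lam).add
      ((hL.hasSum_mean (by omega)).mul_left (1 - lam))
    simpa [P154.noise] using h
  symm π := by
    obtain ⟨e, he⟩ := hL.symm π
    refine ⟨e, fun ω i => ?_⟩
    have : L (e ω) = fun i => L ω (π i) := funext (he ω)
    simp only [this, noise_perm]

/-- Two conditionally independent experiments. -/
theorem mul (hL : Experiment q L) (hL' : Experiment q L') :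
    Experiment q (fun (p : Ω × Ω') i => L p.1 i * L' p.2 i) where
  nonneg p i := mul_nonneg (hL.nonneg _ _) (hL'.nonneg _ _)
  hasSum i := by
    have h1 := hL.hasSum i
    have h2 := hL'.hasSum i
    have h := h1.mul h2
      (h1.summable.mul_of_nonneg h2.summable (fun ω => hL.nonneg ω i) (fun ω => hL'.nonneg ω i))
    simpa using h
  symm π := by
    obtain ⟨e, he⟩ := hL.symm π
    obtain ⟨e', he'⟩ := hL'.symm π
    exact ⟨e.prodCongr e', fun p i => by simp [he, he']⟩

theorem congr_equiv (hL : Experiment q L) (e : Ω' ≃ Ω) :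
    Experiment q (fun ω => L (e ω)) where
  nonneg ω i := hL.nonneg _ i
  hasSum i := (e.hasSum_iff (f := fun ω => L ω i)).2 (hL.hasSum i)
  symm π := by
    obtain ⟨e', he'⟩ := hL.symm π
    exact ⟨(e.trans e').trans e.symm, fun ω i => by simp [he']⟩

/-- `k` conditionally independent copies. -/
theorem pi (hL : Experiment q L) : ∀ k : ℕ, Experiment q (fun (ω : Fin k → Ω) i => ∏ j, L (ω j) i)
  | 0 => by
    refine ⟨fun ω i => by simp, fun i => ?_, fun π => ⟨Equiv.refl _, fun ω i => by simp⟩⟩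
    simp
  | k + 1 => by
    have h := (hL.mul (pi hL k)).congr_equiv (Fin.consEquiv (fun _ : Fin (k + 1) => Ω)).symm
    have h2 : (fun (ω : Fin (k + 1) → Ω) i => ∏ j, L (ω j) i) =
        fun ω i => L ((Fin.consEquiv (fun _ : Fin (k + 1) => Ω)).symm ω).1 i *
          ∏ j, L (((Fin.consEquiv (fun _ : Fin (k + 1) => Ω)).symm ω).2 j) i := by
      funext ω i
      rw [Fin.prod_univ_succ]
      rfl
    rw [h2]
    exact h

/-- Mixture of experiments (the label of the component is observed). -/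
theorem mix {Ω : ℕ → Type*} {L : (k : ℕ) → Ω k → Fin q → ℝ} (hL : ∀ k, Experiment q (L k))
    {ξ : ℕ → ℝ} (hξ : ∀ k, 0 ≤ ξ k) (hξ1 : HasSum ξ 1) :
    Experiment q (fun (p : Σ k, Ω k) i => ξ p.1 * L p.1 p.2 i) where
  nonneg p i := mul_nonneg (hξ _) ((hL _).nonneg _ _)
  hasSum i := by
    have h0 : ∀ k, HasSum (fun ω : Ω k => ξ k * L k ω i) (ξ k) := fun k => by
      simpa using ((hL k).hasSum i).mul_left (ξ k)
    have hs : Summable (fun p : Σ k, Ω k => ξ p.1 * L p.1 p.2 i) := by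
      refine (summable_sigma_of_nonneg fun p => mul_nonneg (hξ _) ((hL _).nonneg _ _)).2
        ⟨fun k => (h0 k).summable, ?_⟩
      simp only [fun k => (h0 k).tsum_eq]
      exact hξ1.summable
    have h1 := hs.hasSum.sigma h0
    have h2 := h1.unique hξ1
    have h3 := hs.hasSum
    rwa [h2] at h3
  symm π := by
    choose e he using fun k => (hL k).symm π
    refine ⟨Equiv.sigmaCongrRight e, fun p i => ?_⟩
    obtain ⟨k, ω⟩ := p
    change ξ k * L k (e k ω) i = ξ k * L k ω (π i)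
    rw [he]

end Experiment

theorem lik_succ (lam : ℝ) (ξ : ℕ → ℝ) (n : ℕ) :
    lik q lam ξ (n + 1) = fun (p : Σ k : ℕ, (Fin k → Obs q n)) i =>
      ξ p.1 * ∏ j, noise lam (lik q lam ξ n (p.2 j)) i := by
  funext p i
  obtain ⟨k, ω⟩ := p
  change ξ k * ∏ j, ∑ s, potts q lam i s * lik q lam ξ n (ω j) s = _
  simp only [sum_potts]

theorem experiment_lik (hq : 2 ≤ q) {lam : ℝ} (hlam : -(1 / ((q : ℝ) - 1)) ≤ lam)
    (hlam1 : lam ≤ 1) {ξ : ℕ → ℝ} (hξ : ∀ k, 0 ≤ ξ k) (hξ1 : HasSum ξ 1) :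
    ∀ n : ℕ, Experiment q (lik q lam ξ n)
  | 0 => by
    refine ⟨fun ω i => ?_, fun i => ?_, fun π => ⟨(π.symm : Fin q ≃ Fin q), fun ω i => ?_⟩⟩
    · have : ∀ s : Fin q, 0 ≤ if i = s then (1 : ℝ) else 0 := fun s => by
        split_ifs <;> norm_num
      exact this ω
    · change HasSum (fun ω : Fin q => if i = ω then (1 : ℝ) else 0) 1
      have := hasSum_ite_eq i (1 : ℝ)
      simpa [eq_comm] using this
    · have : ∀ s : Fin q, (if i = π.symm s then (1 : ℝ) else 0) = if π i = s then 1 else 0 :=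
        fun s => by simp [Equiv.eq_symm_apply]
      exact this ω
  | n + 1 => by
    have ih := experiment_lik hq hlam hlam1 hξ hξ1 n
    have h := Experiment.mix (fun k => (ih.noise hq hlam hlam1).pi k) hξ hξ1
    rw [lik_succ]
    exact h

/-- The average `∑ F (likelihood vector)` of a functional over an experiment. -/
noncomputable def avg {Ω : Type*} (F : (Fin q → ℝ) → ℝ) (L : Ω → Fin q → ℝ) : ℝ :=
  ∑' ω, F (L ω)

/-- the product of two experiments -/
def mulE {Ω Ω' : Type*} (L : Ω → Fin q → ℝ) (L' : Ω' → Fin q → ℝ) : Ω × Ω' → Fin q → ℝ :=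
  fun p i => L p.1 i * L' p.2 i

/-- `k` copies of an experiment -/
def piE {Ω : Type*} (L : Ω → Fin q → ℝ) (k : ℕ) : (Fin k → Ω) → Fin q → ℝ :=
  fun ω i => ∏ j, L (ω j) i

section avg

variable {Ω Ω' : Type*} {L : Ω → Fin q → ℝ} {L' : Ω' → Fin q → ℝ}

theorem Gauge.nonneg_avg {F : (Fin q → ℝ) → ℝ} (hL : Experiment q L)
    (h : ∀ k : Fin q → ℝ, (∀ i, 0 ≤ k i) → 0 ≤ F k) : 0 ≤ avg F L :=
  tsum_nonneg fun ω => h _ (hL.nonneg ω)

theorem avg_mean (hL : Experiment q L) (hq : q ≠ 0) : avg mean L = 1 :=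
  (hL.hasSum_mean hq).tsum_eq

theorem avg_mono (hL : Experiment q L) (hq : q ≠ 0) {F G : (Fin q → ℝ) → ℝ} (hF : Gauge q F)
    (hG : Gauge q G) (h : ∀ k : Fin q → ℝ, (∀ i, 0 ≤ k i) → F k ≤ G k) : avg F L ≤ avg G L :=
  Summable.tsum_le_tsum (fun ω => h _ (hL.nonneg ω)) (hL.summable_gauge hq hF)
    (hL.summable_gauge hq hG)

theorem avg_congr (hL : Experiment q L) {F G : (Fin q → ℝ) → ℝ}
    (h : ∀ k : Fin q → ℝ, (∀ i, 0 ≤ k i) → F k = G k) : avg F L = avg G L :=
  tsum_congr fun ω => h _ (hL.nonneg ω)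

theorem avg_const_mul (c : ℝ) (F : (Fin q → ℝ) → ℝ) : avg (fun k => c * F k) L = c * avg F L :=
  tsum_mul_left

theorem avg_add (hL : Experiment q L) (hq : q ≠ 0) {F G : (Fin q → ℝ) → ℝ} (hF : Gauge q F)
    (hG : Gauge q G) : avg (fun k => F k + G k) L = avg F L + avg G L :=
  (hL.summable_gauge hq hF).tsum_add (hL.summable_gauge hq hG)

/-- Average of a functional of the noisy experiment. -/
theorem avg_noise (lam : ℝ) (F : (Fin q → ℝ) → ℝ) :
    avg F (fun ω => noise lam (L ω)) = avg (fun k => F (noise lam k)) L := rfl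

theorem hasSum_mul (hL : Experiment q L) (hL' : Experiment q L') (hq : q ≠ 0)
    {F G : (Fin q → ℝ) → ℝ} (hF : Gauge q F) (hG : Gauge q G) :
    HasSum (fun p : Ω × Ω' => F (L p.1) * G (L' p.2)) (avg F L * avg G L') := by
  have h1 := hL.summable_gauge hq hF
  have h2 := hL'.summable_gauge hq hG
  exact h1.hasSum.mul h2.hasSum (summable_mul_of_summable_norm h1.norm h2.norm)

/-- Symmetrisation: in the average over a product, `F` may be replaced by its average `star F` over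
relative relabellings. -/
theorem hasSum_star (hL : Experiment q L) (hL' : Experiment q L') (hq : q ≠ 0)
    {F : (Fin q → ℝ) → ℝ} (hF : Gauge q F) :
    HasSum (fun p : Ω × Ω' => star F (L p.1) (L' p.2)) (avg F (mulE L L')) := by
  have h0 : ∀ π : Equiv.Perm (Fin q),
      HasSum (fun p : Ω × Ω' => F (fun i => L p.1 i * L' p.2 (π i))) (avg F (mulE L L')) := by
    intro π
    obtain ⟨e, he⟩ := hL'.symm π
    have h1 := ((hL.mul hL').summable_gauge hq hF).hasSum
    have h2 := ((Equiv.refl Ω).prodCongr e).hasSum_iff.2 h1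
    have h3 : (fun p : Ω × Ω' => F (fun i => L p.1 i * L' p.2 (π i))) =
        (fun ω : Ω × Ω' => F fun i => L ω.1 i * L' ω.2 i) ∘ ⇑((Equiv.refl Ω).prodCongr e) := by
      funext p
      simp only [Function.comp_apply, Equiv.prodCongr_apply, Prod.map, Equiv.refl_apply, he]
    rw [h3]
    exact h2
  have h3 := (hasSum_sum (s := (Finset.univ : Finset (Equiv.Perm (Fin q))))
    fun π _ => h0 π).div_const (q.factorial : ℝ)
  have h4 : (∑ _π : Equiv.Perm (Fin q), avg F (mulE L L')) / (q.factorial : ℝ) =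
      avg F (mulE L L') := by
    have : (q.factorial : ℝ) ≠ 0 := by exact_mod_cast q.factorial_ne_zero
    simp [Fintype.card_perm]
    field_simp
  rw [h4] at h3
  exact h3

theorem sum_le_avg_mul (hL : Experiment q L) (hL' : Experiment q L') (hq : q ≠ 0)
    {F : (Fin q → ℝ) → ℝ} (hF : Gauge q F) {ι : Type*} (s : Finset ι)
    {a b : ι → (Fin q → ℝ) → ℝ} (ha : ∀ r ∈ s, Gauge q (a r)) (hb : ∀ r ∈ s, Gauge q (b r))
    (h : ∀ k l : Fin q → ℝ, (∀ i, 0 ≤ k i) → (∀ i, 0 ≤ l i) →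
      ∑ r ∈ s, a r k * b r l ≤ star F k l) :
    ∑ r ∈ s, avg (a r) L * avg (b r) L' ≤ avg F (mulE L L') := by
  have h1 : HasSum (fun p : Ω × Ω' => ∑ r ∈ s, a r (L p.1) * b r (L' p.2))
      (∑ r ∈ s, avg (a r) L * avg (b r) L') :=
    hasSum_sum fun r hr => hasSum_mul hL hL' hq (ha r hr) (hb r hr)
  have h2 := hasSum_star hL hL' hq hF
  exact hasSum_le (fun p : Ω × Ω' => h (L p.1) (L' p.2) (hL.nonneg p.1) (hL'.nonneg p.2)) h1 h2

theorem avg_mul_le_sum (hL : Experiment q L) (hL' : Experiment q L') (hq : q ≠ 0)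
    {F : (Fin q → ℝ) → ℝ} (hF : Gauge q F) {ι : Type*} (s : Finset ι)
    {a b : ι → (Fin q → ℝ) → ℝ} (ha : ∀ r ∈ s, Gauge q (a r)) (hb : ∀ r ∈ s, Gauge q (b r))
    (h : ∀ k l : Fin q → ℝ, (∀ i, 0 ≤ k i) → (∀ i, 0 ≤ l i) →
      star F k l ≤ ∑ r ∈ s, a r k * b r l) :
    avg F (mulE L L') ≤ ∑ r ∈ s, avg (a r) L * avg (b r) L' := by
  have h1 : HasSum (fun p : Ω × Ω' => ∑ r ∈ s, a r (L p.1) * b r (L' p.2))
      (∑ r ∈ s, avg (a r) L * avg (b r) L') :=
    hasSum_sum fun r hr => hasSum_mul hL hL' hq (ha r hr) (hb r hr)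
  have h2 := hasSum_star hL hL' hq hF
  exact hasSum_le (fun p : Ω × Ω' => h (L p.1) (L' p.2) (hL.nonneg p.1) (hL'.nonneg p.2)) h2 h1

theorem avg_piE_zero (F : (Fin q → ℝ) → ℝ) : avg F (piE L 0) = F (fun _ => 1) := by
  unfold avg piE
  rw [tsum_fintype]
  simp

theorem avg_piE_succ (F : (Fin q → ℝ) → ℝ) (k : ℕ) :
    avg F (piE L (k + 1)) = avg F (mulE L (piE L k)) := by
  unfold avg
  rw [← (Fin.consEquiv (fun _ : Fin (k + 1) => Ω)).tsum_eq]
  refine tsum_congr fun p => ?_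
  congr 1
  funext i
  simp only [piE, mulE]
  rw [Fin.prod_univ_succ]
  rfl

theorem avg_piE_one (F : (Fin q → ℝ) → ℝ) : avg F (piE L 1) = avg F L := by
  unfold avg
  rw [← (Equiv.funUnique (Fin 1) Ω).symm.tsum_eq]
  refine tsum_congr fun p => ?_
  congr 1
  funext i
  simp [piE]

/-- The average of a gauge over the observation at depth `n + 1`. -/
theorem hasSum_avg_lik_succ (hq : 2 ≤ q) {lam : ℝ} (hlam : -(1 / ((q : ℝ) - 1)) ≤ lam)
    (hlam1 : lam ≤ 1) {ξ : ℕ → ℝ} (hξ : ∀ k, 0 ≤ ξ k) (hξ1 : HasSum ξ 1) (n : ℕ)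
    {F : (Fin q → ℝ) → ℝ} (hF : Gauge q F) :
    HasSum (fun k => ξ k * avg F (piE (fun ω => noise lam (lik q lam ξ n ω)) k))
      (avg F (lik q lam ξ (n + 1))) := by
  have hn := experiment_lik hq hlam hlam1 hξ hξ1 n
  have h1 := ((experiment_lik hq hlam hlam1 hξ hξ1 (n + 1)).summable_gauge (by omega) hF).hasSum
  refine HasSum.sigma (β := ℕ) (γ := fun k => Fin k → Obs q n) h1 fun k => ?_
  have h2 := ((((hn.noise hq hlam hlam1).pi k).summable_gauge (by omega) hF).hasSum).mul_left (ξ k)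
  have h3 : (fun ω : Fin k → Obs q n => F (lik q lam ξ (n + 1) ⟨k, ω⟩)) =
      fun ω => ξ k * F (fun i => ∏ j, noise lam (lik q lam ξ n (ω j)) i) := by
    funext ω
    rw [lik_succ]
    exact hF.homog (ξ k) _ (hξ k)
      fun i => Finset.prod_nonneg fun j _ => noise_nonneg hq hlam hlam1 (hn.nonneg _) i
  rw [h3]
  exact h2

end avg

end Vale.Agent.P154
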