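import Vale.Agent.P154.Poly3

namespace Vale.Agent.P154

/-! Normalised inequalities for `q = 3`: `a₁, a₂, -a₁-a₂` are the deviations from `1`. -/

noncomputable def sw (a1 a2 b1 b2 b3 : ℝ) : ℝ := (a1 * b1 + a2 * b2 - (a1 + a2) * b3) / 3

def sN (a1 a2 b1 b2 b3 : ℝ) : ℝ :=
  (1 + a1) ^ 2 * (1 + b1) ^ 2 + (1 + a2) ^ 2 * (1 + b2) ^ 2 + (1 - a1 - a2) ^ 2 * (1 + b3) ^ 2

/-- sum over the six arrangements -/
def six (f : ℝ → ℝ → ℝ → ℝ) (b1 b2 b3 : ℝ) : ℝ :=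
  f b1 b2 b3 + f b2 b3 b1 + f b3 b1 b2 + f b1 b3 b2 + f b3 b2 b1 + f b2 b1 b3

noncomputable def UU (a b : ℝ) : ℝ := (a ^ 2 + a * b + b ^ 2) / 3

def ZZ (a b : ℝ) : ℝ := -(a * b * (a + b))

noncomputable def Glo (u z u' z' : ℝ) : ℝ :=
  1 - u - u' + u * u' - 2 * (u * u') * (u + u') - 2 * (u * u') ^ 2 - z * z' / 2
    + z * z' / 2 * (u + u') - 2 * (u * u') * (z * z') + u * z' * (1 - u) + z * u' * (1 - u')
    + 3 * (u * u') * (u * z' + z * u')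

noncomputable def Gup (u z u' z' : ℝ) : ℝ :=
  1 - u - u' + u * u' - 32 / 25 * (u * u') * (u + u') - 8 / 25 * (u * u') ^ 2 - 8 / 25 * (z * z')
    + 2 / 25 * (z * z') * (u + u') + 2 / 25 * (u * u') * (z * z')
    + (u * z' + z * u') * (1 + 12 / 25 * (u * u')) - 16 / 25 * (z * u' ^ 2 + z' * u ^ 2)

set_option maxHeartbeats 1000000 in
theorem six_lo (a1 a2 b1 b2 : ℝ) :
    six (fun b1 b2 b3 => (9 * (1 + sw a1 a2 b1 b2 b3) ^ 2 - sN a1 a2 b1 b2 b3) *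
      (1 - sw a1 a2 b1 b2 b3 + (sw a1 a2 b1 b2 b3) ^ 2 - (sw a1 a2 b1 b2 b3) ^ 3)) b1 b2 (-b1 - b2)
      = 36 * Glo (UU a1 a2) (ZZ a1 a2) (UU b1 b2) (ZZ b1 b2) := by
  unfold six sw sN Glo UU ZZ
  ring

set_option maxHeartbeats 1000000 in
theorem six_up (a1 a2 b1 b2 : ℝ) :
    six (fun b1 b2 b3 => (9 * (1 + sw a1 a2 b1 b2 b3) ^ 2 - sN a1 a2 b1 b2 b3) *
      (1 - sw a1 a2 b1 b2 b3 + 16 / 25 * (sw a1 a2 b1 b2 b3) ^ 2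
        - 4 / 25 * (sw a1 a2 b1 b2 b3) ^ 3) + 6 * (1 + sw a1 a2 b1 b2 b3) *
      (4 / 25 * (sw a1 a2 b1 b2 b3) ^ 2 * (3 / 2 - sw a1 a2 b1 b2 b3) ^ 2)) b1 b2 (-b1 - b2)
      = 36 * Gup (UU a1 a2) (ZZ a1 a2) (UU b1 b2) (ZZ b1 b2) := by
  unfold six sw sN Gup UU ZZ
  ring

theorem affine_nonneg {p q c z : ℝ} (h1 : 0 ≤ p + q * c) (h2 : 0 ≤ p - q * c) (hz : |z| ≤ c) :
    0 ≤ p + q * z := by
  have h := abs_le.1 hz
  rcases le_total 0 q with hq | hq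
  · nlinarith [mul_le_mul_of_nonneg_left h.1 hq]
  · nlinarith [mul_le_mul_of_nonpos_left h.2 hq]

/-- the bracket of the closure inequality -/
noncomputable def B2 (u z u' z' : ℝ) : ℝ :=
  u * u' / 2 + (u * z' + z * u') / 2 - z * z' / 2 + (1 - u - u' + u * u' - Gup u z u' z')

/-- upper bound for `ψ` -/
noncomputable def chi (u z : ℝ) : ℝ :=
  3 * u - 3 / 2 + (1 - 3 * u + z) / 2 + ((1 + 11 / 5 * u + 8 * u ^ 2) * (1 - 3 * u + z)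
    + (1 - 11 / 5 * u + 6 / 5 * u ^ 2 + 2 / 5 * u ^ 3)) / 2

noncomputable def F1 (u z u' z' : ℝ) : ℝ :=
  Glo u z u' z' - 1 + u + u' - 6 * (1 / 2000) * (u * u')
    - 8 / 45 * ((3 * u' - z') * chi u z + (3 * u - z) * chi u' z')

theorem B2_vertex (a b : ℝ) : B2 (a ^ 2) (2 * a ^ 3) (b ^ 2) (2 * b ^ 3) =
    a ^ 2 * b ^ 2 * V2 a b := by
  unfold B2 Gup V2
  ring

theorem F1_vertex (a b : ℝ) : F1 (a ^ 2) (2 * a ^ 3) (b ^ 2) (2 * b ^ 3) =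
    a ^ 2 * b ^ 2 * V1 a b := by
  unfold F1 Glo chi V1
  ring

theorem abs_le_of_disc {r z : ℝ} (hr : 0 ≤ r) (hz : z ^ 2 ≤ 4 * (r ^ 2) ^ 3) :
    |z| ≤ 2 * r ^ 3 := by
  apply abs_le_of_sq_le_sq _ (by positivity)
  nlinarith

theorem B2_nonneg {r z r' z' : ℝ} (hr : 0 ≤ r) (hr1 : r ≤ 1) (hr' : 0 ≤ r') (hr1' : r' ≤ 1)
    (hz : |z| ≤ 2 * r ^ 3) (hz' : |z'| ≤ 2 * r' ^ 3) : 0 ≤ B2 (r ^ 2) z (r' ^ 2) z' := by
  have key : ∀ a b : ℝ, -1 ≤ a → a ≤ 1 → -1 ≤ b → b ≤ 1 →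
      0 ≤ B2 (a ^ 2) (2 * a ^ 3) (b ^ 2) (2 * b ^ 3) := fun a b h1 h2 h3 h4 => by
    rw [B2_vertex]
    have := V2_nonneg a b h1 h2 h3 h4
    positivity
  have h1 := key r r' (by linarith) hr1 (by linarith) hr1'
  have h2 := key r (-r') (by linarith) hr1 (by linarith) (by linarith)
  have h3 := key (-r) r' (by linarith) (by linarith) (by linarith) hr1'
  have h4 := key (-r) (-r') (by linarith) (by linarith) (by linarith) (by linarith)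
  have aff' : ∀ z, B2 (r ^ 2) z (r' ^ 2) z' = B2 (r ^ 2) z (r' ^ 2) 0 +
      (B2 (r ^ 2) z (r' ^ 2) 1 - B2 (r ^ 2) z (r' ^ 2) 0) * z' := fun z => by
    unfold B2 Gup; ring
  have aff : B2 (r ^ 2) z (r' ^ 2) z' = B2 (r ^ 2) 0 (r' ^ 2) z' +
      (B2 (r ^ 2) 1 (r' ^ 2) z' - B2 (r ^ 2) 0 (r' ^ 2) z') * z := by
    unfold B2 Gup; ring
  have hp : 0 ≤ B2 (r ^ 2) (2 * r ^ 3) (r' ^ 2) z' := by
    rw [aff']
    refine affine_nonneg (c := 2 * r' ^ 3) ?_ ?_ hz'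
    · refine h1.trans_eq ?_; unfold B2 Gup; ring
    · refine h2.trans_eq ?_; unfold B2 Gup; ring
  have hm : 0 ≤ B2 (r ^ 2) (-(2 * r ^ 3)) (r' ^ 2) z' := by
    rw [aff']
    refine affine_nonneg (c := 2 * r' ^ 3) ?_ ?_ hz'
    · refine h3.trans_eq ?_; unfold B2 Gup; ring
    · refine h4.trans_eq ?_; unfold B2 Gup; ring
  rw [aff]
  refine affine_nonneg (c := 2 * r ^ 3) ?_ ?_ hz
  · refine hp.trans_eq ?_; unfold B2 Gup; ring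
  · refine hm.trans_eq ?_; unfold B2 Gup; ring

theorem F1_nonneg {r z r' z' : ℝ} (hr : 0 ≤ r) (hr1 : r ≤ 1) (hr' : 0 ≤ r') (hr1' : r' ≤ 1)
    (hz : |z| ≤ 2 * r ^ 3) (hz' : |z'| ≤ 2 * r' ^ 3) : 0 ≤ F1 (r ^ 2) z (r' ^ 2) z' := by
  have key : ∀ a b : ℝ, -1 ≤ a → a ≤ 1 → -1 ≤ b → b ≤ 1 →
      0 ≤ F1 (a ^ 2) (2 * a ^ 3) (b ^ 2) (2 * b ^ 3) := fun a b h1 h2 h3 h4 => by
    rw [F1_vertex]
    have := V1_nonneg a b h1 h2 h3 h4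
    positivity
  have h1 := key r r' (by linarith) hr1 (by linarith) hr1'
  have h2 := key r (-r') (by linarith) hr1 (by linarith) (by linarith)
  have h3 := key (-r) r' (by linarith) (by linarith) (by linarith) hr1'
  have h4 := key (-r) (-r') (by linarith) (by linarith) (by linarith) (by linarith)
  have aff' : ∀ z, F1 (r ^ 2) z (r' ^ 2) z' = F1 (r ^ 2) z (r' ^ 2) 0 +
      (F1 (r ^ 2) z (r' ^ 2) 1 - F1 (r ^ 2) z (r' ^ 2) 0) * z' := fun z => by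
    unfold F1 Glo chi; ring
  have aff : F1 (r ^ 2) z (r' ^ 2) z' = F1 (r ^ 2) 0 (r' ^ 2) z' +
      (F1 (r ^ 2) 1 (r' ^ 2) z' - F1 (r ^ 2) 0 (r' ^ 2) z') * z := by
    unfold F1 Glo chi; ring
  have hp : 0 ≤ F1 (r ^ 2) (2 * r ^ 3) (r' ^ 2) z' := by
    rw [aff']
    refine affine_nonneg (c := 2 * r' ^ 3) ?_ ?_ hz'
    · refine h1.trans_eq ?_; unfold F1 Glo chi; ring
    · refine h2.trans_eq ?_; unfold F1 Glo chi; ring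
  have hm : 0 ≤ F1 (r ^ 2) (-(2 * r ^ 3)) (r' ^ 2) z' := by
    rw [aff']
    refine affine_nonneg (c := 2 * r' ^ 3) ?_ ?_ hz'
    · refine h3.trans_eq ?_; unfold F1 Glo chi; ring
    · refine h4.trans_eq ?_; unfold F1 Glo chi; ring
  rw [aff]
  refine affine_nonneg (c := 2 * r ^ 3) ?_ ?_ hz
  · refine hp.trans_eq ?_; unfold F1 Glo chi; ring
  · refine hm.trans_eq ?_; unfold F1 Glo chi; ring

/-- `2 / W`-free upper bound: for `n ≥ 0` with average `W` and `N = ∑ n ^ 2`. -/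
theorem phi_le {W N : ℝ} (hW : 0 ≤ W) (hN : N ≤ 9 * W ^ 2) (hN0 : 0 ≤ N) :
    N / W - 3 * W ≤ 6 * W - (9 * W ^ 2 - N) * (1 - (W - 1) + (W - 1) ^ 2 - (W - 1) ^ 3) := by
  rcases hW.eq_or_lt with h | h
  · subst h
    have : N = 0 := by nlinarith
    subst this; simp
  · rw [div_sub' h.ne', div_le_iff₀ h]
    have h4 : 0 ≤ (W - 1) ^ 4 := by positivity
    nlinarith [mul_nonneg (sub_nonneg.2 hN) h4]

theorem e2_div_le {W N : ℝ} (hW : 0 ≤ W) (hN : N ≤ 9 * W ^ 2) (hN3 : 3 * W ^ 2 ≤ N) :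
    9 * W - N / W ≤ (9 * W ^ 2 - N) * (1 - (W - 1) + 16 / 25 * (W - 1) ^ 2
        - 4 / 25 * (W - 1) ^ 3) + 6 * W * (4 / 25 * (W - 1) ^ 2 * (3 / 2 - (W - 1)) ^ 2) := by
  rcases hW.eq_or_lt with h | h
  · subst h
    have : N = 0 := by nlinarith
    subst this; simp
  · rw [sub_div' h.ne', div_le_iff₀ h]
    have h4 : 0 ≤ 4 / 25 * (W - 1) ^ 2 * (3 / 2 - (W - 1)) ^ 2 := by positivity
    nlinarith [mul_nonneg (sub_nonneg.2 hN3) h4]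

theorem tail_ge {W p y : ℝ} (hW : 0 ≤ W) (h0 : W = 0 → p = 0) (hy : 0 ≤ y) (hp : y ^ 2 = p) :
    p * (3 - 2 * W) / 2 + y * (3 - W) / 2 ≤ p / (2 * W ^ 2) + Real.sqrt (p / W) := by
  have hp0 : 0 ≤ p := by rw [← hp]; positivity
  rcases hW.eq_or_lt with h | h
  · have e := h0 h.symm
    have ey : y = 0 := by
      rw [e] at hp
      exact pow_eq_zero_iff (two_ne_zero) |>.1 hp
    rw [← h, e, ey]; simp
  · have h1 : p * (3 - 2 * W) / 2 ≤ p / (2 * W ^ 2) := by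
      rw [le_div_iff₀ (by positivity)]
      have e : 0 ≤ (1 - W) ^ 2 * (1 + 2 * W) := by positivity
      nlinarith [mul_nonneg hp0 e]
    have h2 : y * (3 - W) / 2 ≤ Real.sqrt (p / W) := by
      rw [← hp, Real.sqrt_div (by positivity), Real.sqrt_sq hy]
      have ht : 0 < Real.sqrt W := Real.sqrt_pos.2 h
      have ht2 : Real.sqrt W ^ 2 = W := Real.sq_sqrt hW
      rw [le_div_iff₀ ht]
      set t := Real.sqrt W with htdef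
      rw [← ht2]
      have e : 0 ≤ (1 - t) ^ 2 * (2 + t) := by positivity
      nlinarith [mul_nonneg hy e]
    linarith

/-- admissible deviations -/
structure Adm (a1 a2 : ℝ) : Prop where
  h1 : 0 ≤ 1 + a1
  h2 : 0 ≤ 1 + a2
  h3 : 0 ≤ 1 - a1 - a2

namespace Adm

variable {a1 a2 : ℝ}

theorem u_nonneg (a1 a2 : ℝ) : 0 ≤ UU a1 a2 := by
  unfold UU; nlinarith [sq_nonneg (a1 + a2), sq_nonneg a1, sq_nonneg a2]

theorem u_le (h : Adm a1 a2) : UU a1 a2 ≤ 1 := by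
  unfold UU
  nlinarith [mul_nonneg h.h1 h.h2, mul_nonneg h.h1 h.h3, mul_nonneg h.h2 h.h3]

theorem disc (a1 a2 : ℝ) : (ZZ a1 a2) ^ 2 ≤ 4 * (UU a1 a2) ^ 3 := by
  unfold UU ZZ
  nlinarith [sq_nonneg ((a1 - a2) * (2 * a1 + a2) * (a1 + 2 * a2))]

theorem prod_eq (a1 a2 : ℝ) : (1 + a1) * (1 + a2) * (1 - a1 - a2) =
    1 - 3 * UU a1 a2 + ZZ a1 a2 := by
  unfold UU ZZ; ring

theorem prod_nonneg (h : Adm a1 a2) : 0 ≤ 1 - 3 * UU a1 a2 + ZZ a1 a2 := by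
  rw [← prod_eq]
  exact mul_nonneg (mul_nonneg h.h1 h.h2) h.h3

theorem exists_r (h : Adm a1 a2) : ∃ r, 0 ≤ r ∧ r ≤ 1 ∧ UU a1 a2 = r ^ 2 ∧
    |ZZ a1 a2| ≤ 2 * r ^ 3 := by
  have e : Real.sqrt (UU a1 a2) ^ 2 = UU a1 a2 := Real.sq_sqrt (u_nonneg a1 a2)
  refine ⟨Real.sqrt (UU a1 a2), Real.sqrt_nonneg _, Real.sqrt_le_one.2 h.u_le, e.symm, ?_⟩
  refine abs_le_of_disc (Real.sqrt_nonneg _) ?_
  rw [e]
  exact disc a1 a2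

theorem prod_le (h : Adm a1 a2) : 1 - 3 * UU a1 a2 + ZZ a1 a2 ≤ 1 := by
  obtain ⟨r, h0, h1, hu, hz⟩ := h.exists_r
  have := (abs_le.1 hz).2
  rw [hu]
  nlinarith [mul_nonneg (sq_nonneg r) (sub_nonneg.2 h1)]

/-- `√P ≤ 1 - u` -/
theorem sqrt_prod_le (h : Adm a1 a2) :
    Real.sqrt (1 - 3 * UU a1 a2 + ZZ a1 a2) ≤ 1 - UU a1 a2 := by
  rw [Real.sqrt_le_left (by linarith [h.u_le])]
  obtain ⟨r, h0, h1, hu, hz⟩ := h.exists_r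
  have := (abs_le.1 hz).2
  rw [hu]
  nlinarith [sq_nonneg (r - r ^ 2), mul_nonneg h0 (sq_nonneg (1 - r))]

end Adm

/-- normalised `ψ` -/
noncomputable def ps (u z : ℝ) : ℝ :=
  3 * u - 3 / 2 + (1 - 3 * u + z) / 2 + Real.sqrt (1 - 3 * u + z)

theorem ps_le_chi {u z : ℝ} (hu : 0 ≤ u) (hP : 0 ≤ 1 - 3 * u + z) :
    ps u z ≤ chi u z := by
  set P := 1 - 3 * u + z with hPdef
  set g := 1 + 11 / 5 * u + 8 * u ^ 2 with hg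
  set e := 1 - 11 / 5 * u + 6 / 5 * u ^ 2 + 2 / 5 * u ^ 3 with he
  have hg0 : 0 < g := by positivity
  have hge : 1 ≤ g * e := by
    have hq : g * e = 1 + u ^ 2 * (109 / 25 - 364 / 25 * u + 262 / 25 * u ^ 2 + 16 / 5 * u ^ 3) := by
      rw [hg, he]; ring
    have hc : 0 ≤ 109 / 25 - 364 / 25 * u + 262 / 25 * u ^ 2 + 16 / 5 * u ^ 3 := by
      nlinarith [mul_nonneg (sq_nonneg (u - 111 / 200)) (by linarith : (0 : ℝ) ≤ u + 111 / 100),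
        sq_nonneg (u - 277 / 500)]
    rw [hq]
    nlinarith [mul_nonneg (sq_nonneg u) hc]
  have he0 : 0 < e := by
    by_contra hcon
    push Not at hcon
    nlinarith [mul_nonneg hg0.le (neg_nonneg.2 hcon)]
  have key : Real.sqrt P ≤ (g * P + e) / 2 := by
    rw [Real.sqrt_le_left (by positivity)]
    nlinarith [sq_nonneg (g * P - e), mul_le_mul_of_nonneg_right hge hP]
  have : chi u z = 3 * u - 3 / 2 + P / 2 + (g * P + e) / 2 := by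
    unfold chi; rfl
  rw [this]
  unfold ps
  linarith

theorem closure_alg {u y u' y' : ℝ} :
    3 / 2 - 3 * Gup u (y ^ 2 - 1 + 3 * u) u' (y' ^ 2 - 1 + 3 * u') + y ^ 2 * y' ^ 2 / 2 + y * y'
      - (y ^ 2 * (3 * u' - 3 / 2 + y' ^ 2 / 2 + y') + y' ^ 2 * (3 * u - 3 / 2 + y ^ 2 / 2 + y)) =
      3 * B2 u (y ^ 2 - 1 + 3 * u) u' (y' ^ 2 - 1 + 3 * u') + (1 - y) * (1 - y') * (y * y') := by
  unfold B2 Gup
  ring

theorem six_mono {f g : ℝ → ℝ → ℝ → ℝ} {b1 b2 b3 : ℝ}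
    (h : ∀ c1 c2 c3, ((c1 = b1 ∧ c2 = b2 ∧ c3 = b3) ∨ (c1 = b2 ∧ c2 = b3 ∧ c3 = b1) ∨
      (c1 = b3 ∧ c2 = b1 ∧ c3 = b2) ∨ (c1 = b1 ∧ c2 = b3 ∧ c3 = b2) ∨
      (c1 = b3 ∧ c2 = b2 ∧ c3 = b1) ∨ (c1 = b2 ∧ c2 = b1 ∧ c3 = b3)) → f c1 c2 c3 ≤ g c1 c2 c3) :
    six f b1 b2 b3 ≤ six g b1 b2 b3 := by
  unfold six
  have h1 := h b1 b2 b3 (by simp)
  have h2 := h b2 b3 b1 (by simp)
  have h3 := h b3 b1 b2 (by simp)
  have h4 := h b1 b3 b2 (by simp)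
  have h5 := h b3 b2 b1 (by simp)
  have h6 := h b2 b1 b3 (by simp)
  linarith

/-- facts on `n_i = k_i l_i` used pointwise -/
theorem pt_facts {x y z : ℝ} (hx : 0 ≤ x) (hy : 0 ≤ y) (hz : 0 ≤ z) :
    x ^ 2 + y ^ 2 + z ^ 2 ≤ 9 * ((x + y + z) / 3) ^ 2 ∧
    3 * ((x + y + z) / 3) ^ 2 ≤ x ^ 2 + y ^ 2 + z ^ 2 ∧
    ((x + y + z) / 3 = 0 → x * y * z = 0) := by
  refine ⟨?_, ?_, ?_⟩
  · nlinarith [mul_nonneg hx hy, mul_nonneg hx hz, mul_nonneg hy hz]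
  · nlinarith [sq_nonneg (x - y), sq_nonneg (x - z), sq_nonneg (y - z)]
  · intro h
    have : x = 0 := by linarith
    rw [this]; ring

/-- the gauges on triples -/
noncomputable def ph3 (x y z : ℝ) : ℝ :=
  (x ^ 2 + y ^ 2 + z ^ 2) / ((x + y + z) / 3) - 3 * ((x + y + z) / 3)

noncomputable def ps3 (x y z : ℝ) : ℝ :=
  (x ^ 2 + y ^ 2 + z ^ 2) / (2 * ((x + y + z) / 3)) - 3 * ((x + y + z) / 3)
    + x * y * z / (2 * ((x + y + z) / 3) ^ 2) + Real.sqrt (x * y * z / ((x + y + z) / 3))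

theorem ph3_le {x y z : ℝ} (hx : 0 ≤ x) (hy : 0 ≤ y) (hz : 0 ≤ z) :
    ph3 x y z ≤ 6 * ((x + y + z) / 3) - (9 * ((x + y + z) / 3) ^ 2 - (x ^ 2 + y ^ 2 + z ^ 2)) *
      (1 - ((x + y + z) / 3 - 1) + ((x + y + z) / 3 - 1) ^ 2 - ((x + y + z) / 3 - 1) ^ 3) := by
  obtain ⟨h1, h2, h3⟩ := pt_facts hx hy hz
  exact phi_le (by positivity) h1 (by positivity)

theorem le_ps3 {x y z v : ℝ} (hx : 0 ≤ x) (hy : 0 ≤ y) (hz : 0 ≤ z) (hv : 0 ≤ v)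
    (hv2 : v ^ 2 = x * y * z) :
    3 / 2 * ((x + y + z) / 3) - ((9 * ((x + y + z) / 3) ^ 2 - (x ^ 2 + y ^ 2 + z ^ 2)) *
      (1 - ((x + y + z) / 3 - 1) + 16 / 25 * ((x + y + z) / 3 - 1) ^ 2
        - 4 / 25 * ((x + y + z) / 3 - 1) ^ 3) + 6 * ((x + y + z) / 3) *
      (4 / 25 * ((x + y + z) / 3 - 1) ^ 2 * (3 / 2 - ((x + y + z) / 3 - 1)) ^ 2)) / 2 +
      (x * y * z * (3 - 2 * ((x + y + z) / 3)) / 2 + v * (3 - (x + y + z) / 3) / 2) ≤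
    ps3 x y z := by
  obtain ⟨h1, h2, h3⟩ := pt_facts hx hy hz
  have e1 := e2_div_le (W := (x + y + z) / 3) (by positivity) h1 h2
  have e2 := tail_ge (W := (x + y + z) / 3) (by positivity) h3 hv hv2
  unfold ps3
  have e3 : (x ^ 2 + y ^ 2 + z ^ 2) / (2 * ((x + y + z) / 3)) =
      (x ^ 2 + y ^ 2 + z ^ 2) / ((x + y + z) / 3) / 2 := by
    rw [mul_comm, div_mul_eq_div_div]
  rw [e3]
  linarith

theorem six_sub (f g : ℝ → ℝ → ℝ → ℝ) (b1 b2 b3 : ℝ) :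
    six (fun x y z => f x y z - g x y z) b1 b2 b3 = six f b1 b2 b3 - six g b1 b2 b3 := by
  unfold six; ring

theorem arr_sum {b1 b2 b3 c1 c2 c3 : ℝ} (h0 : b1 + b2 + b3 = 0)
    (h : (c1 = b1 ∧ c2 = b2 ∧ c3 = b3) ∨ (c1 = b2 ∧ c2 = b3 ∧ c3 = b1) ∨
      (c1 = b3 ∧ c2 = b1 ∧ c3 = b2) ∨ (c1 = b1 ∧ c2 = b3 ∧ c3 = b2) ∨
      (c1 = b3 ∧ c2 = b2 ∧ c3 = b1) ∨ (c1 = b2 ∧ c2 = b1 ∧ c3 = b3)) (g1 : 0 ≤ 1 + b1)
    (g2 : 0 ≤ 1 + b2) (g3 : 0 ≤ 1 + b3) : c1 + c2 + c3 = 0 ∧ 0 ≤ 1 + c1 ∧ 0 ≤ 1 + c2 ∧ 0 ≤ 1 + c3 ∧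
      (1 + c1) * (1 + c2) * (1 + c3) = (1 + b1) * (1 + b2) * (1 + b3) := by
  rcases h with ⟨h1, h2, h3⟩ | ⟨h1, h2, h3⟩ | ⟨h1, h2, h3⟩ | ⟨h1, h2, h3⟩ | ⟨h1, h2, h3⟩ |
    ⟨h1, h2, h3⟩ <;> subst h1 h2 h3 <;>
    exact ⟨by linarith, by assumption, by assumption, by assumption, by ring⟩

theorem six_ph3_le {a1 a2 b1 b2 : ℝ} (ha : Adm a1 a2) (hb : Adm b1 b2) :
    six (fun b1 b2 b3 => ph3 ((1 + a1) * (1 + b1)) ((1 + a2) * (1 + b2))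
      ((1 - a1 - a2) * (1 + b3))) b1 b2 (-b1 - b2) ≤
    36 - 36 * Glo (UU a1 a2) (ZZ a1 a2) (UU b1 b2) (ZZ b1 b2) := by
  have e : six (fun b1 b2 b3 => 6 * (1 + sw a1 a2 b1 b2 b3)) b1 b2 (-b1 - b2) = 36 := by
    unfold six sw; ring
  rw [← six_lo, ← e, ← six_sub]
  refine six_mono fun c1 c2 c3 hc => ?_
  obtain ⟨h0, g1, g2, g3, -⟩ := arr_sum (by ring) hc hb.h1 hb.h2 (by linarith [hb.h3])
  have h := ph3_le (mul_nonneg ha.h1 g1) (mul_nonneg ha.h2 g2) (mul_nonneg ha.h3 g3)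
  have eW : ((1 + a1) * (1 + c1) + (1 + a2) * (1 + c2) + (1 - a1 - a2) * (1 + c3)) / 3 =
      1 + sw a1 a2 c1 c2 c3 := by
    have : c3 = -c1 - c2 := by linarith
    subst this
    unfold sw; ring
  rw [eW] at h
  refine h.trans_eq ?_
  unfold sN
  ring

theorem le_six_ps3 {a1 a2 b1 b2 : ℝ} (ha : Adm a1 a2) (hb : Adm b1 b2) :
    9 - 18 * Gup (UU a1 a2) (ZZ a1 a2) (UU b1 b2) (ZZ b1 b2)
      + 3 * ((1 - 3 * UU a1 a2 + ZZ a1 a2) * (1 - 3 * UU b1 b2 + ZZ b1 b2))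
      + 6 * (Real.sqrt (1 - 3 * UU a1 a2 + ZZ a1 a2) * Real.sqrt (1 - 3 * UU b1 b2 + ZZ b1 b2)) ≤
    six (fun b1 b2 b3 => ps3 ((1 + a1) * (1 + b1)) ((1 + a2) * (1 + b2))
      ((1 - a1 - a2) * (1 + b3))) b1 b2 (-b1 - b2) := by
  set p := (1 - 3 * UU a1 a2 + ZZ a1 a2) * (1 - 3 * UU b1 b2 + ZZ b1 b2) with hp
  set v := Real.sqrt (1 - 3 * UU a1 a2 + ZZ a1 a2) * Real.sqrt (1 - 3 * UU b1 b2 + ZZ b1 b2)
    with hv
  have hv0 : 0 ≤ v := by positivity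
  have hv2 : v ^ 2 = p := by
    rw [hv, mul_pow, Real.sq_sqrt ha.prod_nonneg, Real.sq_sqrt hb.prod_nonneg]
  have e1 := six_up a1 a2 b1 b2
  have e : 9 - 18 * Gup (UU a1 a2) (ZZ a1 a2) (UU b1 b2) (ZZ b1 b2) + 3 * p + 6 * v =
      six (fun b1 b2 b3 => (3 / 2 * (1 + sw a1 a2 b1 b2 b3) +
        (p * (3 - 2 * (1 + sw a1 a2 b1 b2 b3)) / 2 + v * (3 - (1 + sw a1 a2 b1 b2 b3)) / 2)) -
        1 / 2 * ((9 * (1 + sw a1 a2 b1 b2 b3) ^ 2 - sN a1 a2 b1 b2 b3) *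
      (1 - sw a1 a2 b1 b2 b3 + 16 / 25 * (sw a1 a2 b1 b2 b3) ^ 2
        - 4 / 25 * (sw a1 a2 b1 b2 b3) ^ 3) + 6 * (1 + sw a1 a2 b1 b2 b3) *
      (4 / 25 * (sw a1 a2 b1 b2 b3) ^ 2 * (3 / 2 - sw a1 a2 b1 b2 b3) ^ 2))) b1 b2 (-b1 - b2) := by
    rw [six_sub (fun b1 b2 b3 => (3 / 2 * (1 + sw a1 a2 b1 b2 b3) +
        (p * (3 - 2 * (1 + sw a1 a2 b1 b2 b3)) / 2 + v * (3 - (1 + sw a1 a2 b1 b2 b3)) / 2)))]
    have e2 : ∀ F : ℝ → ℝ → ℝ → ℝ, six (fun b1 b2 b3 => 1 / 2 * F b1 b2 b3) b1 b2 (-b1 - b2) =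
        1 / 2 * six F b1 b2 (-b1 - b2) := fun F => by unfold six; ring
    rw [e2 (fun b1 b2 b3 => ((9 * (1 + sw a1 a2 b1 b2 b3) ^ 2 - sN a1 a2 b1 b2 b3) *
      (1 - sw a1 a2 b1 b2 b3 + 16 / 25 * (sw a1 a2 b1 b2 b3) ^ 2
        - 4 / 25 * (sw a1 a2 b1 b2 b3) ^ 3) + 6 * (1 + sw a1 a2 b1 b2 b3) *
      (4 / 25 * (sw a1 a2 b1 b2 b3) ^ 2 * (3 / 2 - sw a1 a2 b1 b2 b3) ^ 2))), e1]
    have e3 : six (fun b1 b2 b3 => (3 / 2 * (1 + sw a1 a2 b1 b2 b3) +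
        (p * (3 - 2 * (1 + sw a1 a2 b1 b2 b3)) / 2 + v * (3 - (1 + sw a1 a2 b1 b2 b3)) / 2)))
        b1 b2 (-b1 - b2) = 9 + 3 * p + 6 * v := by
      unfold six sw; ring
    rw [e3]; ring
  rw [e]
  refine six_mono fun c1 c2 c3 hc => ?_
  obtain ⟨h0, g1, g2, g3, gp⟩ := arr_sum (by ring) hc hb.h1 hb.h2 (by linarith [hb.h3])
  have hpe : (1 + a1) * (1 + c1) * ((1 + a2) * (1 + c2)) * ((1 - a1 - a2) * (1 + c3)) = p := by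
    rw [hp, ← Adm.prod_eq a1 a2, ← Adm.prod_eq b1 b2]
    have : 1 - b1 - b2 = 1 + (-b1 - b2) := by ring
    rw [this, ← gp]
    ring
  have h := le_ps3 (mul_nonneg ha.h1 g1) (mul_nonneg ha.h2 g2) (mul_nonneg ha.h3 g3) hv0
    (hv2.trans hpe.symm)
  have eW : ((1 + a1) * (1 + c1) + (1 + a2) * (1 + c2) + (1 - a1 - a2) * (1 + c3)) / 3 =
      1 + sw a1 a2 c1 c2 c3 := by
    have : c3 = -c1 - c2 := by linarith
    subst this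
    unfold sw; ring
  rw [eW, hpe] at h
  refine le_trans (le_of_eq ?_) h
  unfold sN
  ring

/-- subadditivity, normalised -/
theorem subadd_norm {a1 a2 b1 b2 : ℝ} (ha : Adm a1 a2) (hb : Adm b1 b2) :
    six (fun b1 b2 b3 => ph3 ((1 + a1) * (1 + b1)) ((1 + a2) * (1 + b2))
      ((1 - a1 - a2) * (1 + b3))) b1 b2 (-b1 - b2) / 6 ≤
    6 * UU a1 a2 + 6 * UU b1 b2 - 1 / 2000 * (6 * UU a1 a2 * (6 * UU b1 b2))
      - 16 / 15 * (3 * UU b1 b2 - ZZ b1 b2) * ps (UU a1 a2) (ZZ a1 a2)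
      - 16 / 15 * (3 * UU a1 a2 - ZZ a1 a2) * ps (UU b1 b2) (ZZ b1 b2) := by
  have h := six_ph3_le ha hb
  obtain ⟨r, h0, h1, hu, hz⟩ := ha.exists_r
  obtain ⟨r', h0', h1', hu', hz'⟩ := hb.exists_r
  have hF := F1_nonneg h0 h1 h0' h1' hz hz'
  rw [← hu, ← hu'] at hF
  have c1 := ps_le_chi (Adm.u_nonneg a1 a2) ha.prod_nonneg
  have c2 := ps_le_chi (Adm.u_nonneg b1 b2) hb.prod_nonneg
  have k1 : 0 ≤ 3 * UU a1 a2 - ZZ a1 a2 := by linarith [ha.prod_le]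
  have k2 : 0 ≤ 3 * UU b1 b2 - ZZ b1 b2 := by linarith [hb.prod_le]
  have m1 := mul_le_mul_of_nonneg_left c1 k2
  have m2 := mul_le_mul_of_nonneg_left c2 k1
  unfold F1 at hF
  linarith

/-- closure, normalised -/
theorem closure_norm {a1 a2 b1 b2 : ℝ} (ha : Adm a1 a2) (hb : Adm b1 b2) :
    (1 - 3 * UU b1 b2 + ZZ b1 b2) * ps (UU a1 a2) (ZZ a1 a2) +
      (1 - 3 * UU a1 a2 + ZZ a1 a2) * ps (UU b1 b2) (ZZ b1 b2) ≤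
    six (fun b1 b2 b3 => ps3 ((1 + a1) * (1 + b1)) ((1 + a2) * (1 + b2))
      ((1 - a1 - a2) * (1 + b3))) b1 b2 (-b1 - b2) / 6 := by
  have h := le_six_ps3 ha hb
  obtain ⟨r, h0, h1, hu, hz⟩ := ha.exists_r
  obtain ⟨r', h0', h1', hu', hz'⟩ := hb.exists_r
  have hB := B2_nonneg h0 h1 h0' h1' hz hz'
  rw [← hu, ← hu'] at hB
  unfold ps
  set u := UU a1 a2
  set u' := UU b1 b2
  set z := ZZ a1 a2
  set z' := ZZ b1 b2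
  set y := Real.sqrt (1 - 3 * u + z) with hy
  set y' := Real.sqrt (1 - 3 * u' + z') with hy'
  have hy0 : 0 ≤ y := Real.sqrt_nonneg _
  have hy0' : 0 ≤ y' := Real.sqrt_nonneg _
  have hy1 : y ≤ 1 := Real.sqrt_le_one.2 ha.prod_le
  have hy1' : y' ≤ 1 := Real.sqrt_le_one.2 hb.prod_le
  have ez : z = y ^ 2 - 1 + 3 * u := by
    rw [hy, Real.sq_sqrt ha.prod_nonneg]; ring
  have ez' : z' = y' ^ 2 - 1 + 3 * u' := by
    rw [hy', Real.sq_sqrt hb.prod_nonneg]; ring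
  have key := closure_alg (u := u) (y := y) (u' := u') (y' := y')
  rw [← ez, ← ez'] at key
  have e1 : 1 - 3 * u + z = y ^ 2 := by rw [ez]; ring
  have e2 : 1 - 3 * u' + z' = y' ^ 2 := by rw [ez']; ring
  rw [e1, e2] at h ⊢
  have hpos : 0 ≤ (1 - y) * (1 - y') * (y * y') :=
    mul_nonneg (mul_nonneg (by linarith) (by linarith)) (mul_nonneg hy0 hy0')
  linarith

theorem ps_eq {u z : ℝ} (hP : 0 ≤ 1 - 3 * u + z) :
    ps u z = z - (1 - Real.sqrt (1 - 3 * u + z)) ^ 2 / 2 := by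
  unfold ps
  have := Real.sq_sqrt hP
  linarith

/-- noise -/
theorem ps_noise {lam u z : ℝ} (h0 : 0 ≤ lam) (h1 : lam ≤ 1) (hu : 0 ≤ u)
    (hP : 0 ≤ 1 - 3 * u + z) (hP1 : z ≤ 3 * u) (hs : Real.sqrt (1 - 3 * u + z) ≤ 1 - u) :
    lam ^ 3 * ps u z ≤ ps (lam ^ 2 * u) (lam ^ 3 * z) := by
  set m := Real.sqrt lam with hm
  have hm0 : 0 ≤ m := Real.sqrt_nonneg _
  have hm1 : m ≤ 1 := Real.sqrt_le_one.2 h1
  have hm2 : lam = m ^ 2 := (Real.sq_sqrt h0).symm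
  have hPl1 : 1 - 3 * (lam ^ 2 * u) + lam ^ 3 * z ≤ 1 := by
    have e1 : lam ^ 3 * z ≤ lam ^ 3 * (3 * u) := mul_le_mul_of_nonneg_left hP1 (by positivity)
    have e2 : 0 ≤ lam ^ 2 * u * (1 - lam) := mul_nonneg (by positivity) (by linarith)
    nlinarith
  rw [ps_eq hP]
  set y := Real.sqrt (1 - 3 * u + z) with hy
  have hy0 : 0 ≤ y := Real.sqrt_nonneg _
  have hy1 : y ≤ 1 := Real.sqrt_le_one.2 (by linarith)
  have ez : z = y ^ 2 - 1 + 3 * u := by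
    rw [hy, Real.sq_sqrt hP]; ring
  have hm3 : m ^ 3 ≤ 1 := pow_le_one₀ hm0 hm1
  have key : (1 - m ^ 3 * (1 - y)) ^ 2 ≤ 1 - 3 * (lam ^ 2 * u) + lam ^ 3 * z := by
    rw [hm2, ez]
    have e : 1 - 3 * ((m ^ 2) ^ 2 * u) + (m ^ 2) ^ 3 * (y ^ 2 - 1 + 3 * u) -
        (1 - m ^ 3 * (1 - y)) ^ 2 = m ^ 3 * (1 - m) *
          (2 * (1 - y) * (1 + m + m ^ 2) - 3 * m * (1 + m) * u) := by ring
    have f : 0 ≤ 2 * (1 - y) * (1 + m + m ^ 2) - 3 * m * (1 + m) * u := by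
      have f1 : 0 ≤ (1 - y - u) * (1 + m + m ^ 2) := mul_nonneg (by linarith) (by positivity)
      have f2 : 0 ≤ u * ((1 - m) * (2 + m)) :=
        mul_nonneg hu (mul_nonneg (by linarith) (by linarith))
      nlinarith
    have g : 0 ≤ m ^ 3 * (1 - m) *
          (2 * (1 - y) * (1 + m + m ^ 2) - 3 * m * (1 + m) * u) :=
      mul_nonneg (mul_nonneg (by positivity) (by linarith)) f
    linarith
  have hPl : 0 ≤ 1 - 3 * (lam ^ 2 * u) + lam ^ 3 * z := le_trans (sq_nonneg _) key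
  rw [ps_eq hPl]
  have k1 : 1 - m ^ 3 * (1 - y) ≤ Real.sqrt (1 - 3 * (lam ^ 2 * u) + lam ^ 3 * z) :=
    Real.le_sqrt_of_sq_le key
  have k2 : Real.sqrt (1 - 3 * (lam ^ 2 * u) + lam ^ 3 * z) ≤ 1 := Real.sqrt_le_one.2 hPl1
  set t := Real.sqrt (1 - 3 * (lam ^ 2 * u) + lam ^ 3 * z) with ht
  have k3 : (1 - t) ^ 2 ≤ (m ^ 3 * (1 - y)) ^ 2 :=
    pow_le_pow_left₀ (by linarith) (by linarith) 2
  have k4 : (m ^ 3 * (1 - y)) ^ 2 = lam ^ 3 * (1 - y) ^ 2 := by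
    rw [hm2]; ring
  rw [k4] at k3
  nlinarith

end Vale.Agent.P154
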