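import Vale.Agent.P154.Abstract
import Vale.Agent.P154.Real3

open Filter Topology

namespace Vale.Agent.P154

/-! ### Basic gauges on `Fin 3 → ℝ` -/

noncomputable def sqG (k : Fin 3 → ℝ) : ℝ := (∑ i, k i ^ 2) / mean k

noncomputable def prG (k : Fin 3 → ℝ) : ℝ := (∏ i, k i) / mean k ^ 2

noncomputable def rtG (k : Fin 3 → ℝ) : ℝ := Real.sqrt ((∏ i, k i) / mean k)

theorem mean3 (k : Fin 3 → ℝ) : mean k = (k 0 + k 1 + k 2) / 3 := by
  simp [mean, Fin.sum_univ_three]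

theorem prod_le_mean {k : Fin 3 → ℝ} (hk : ∀ i, 0 ≤ k i) : ∏ i, k i ≤ 27 * mean k ^ 3 := by
  have hm := mean_nonneg hk
  have h : ∀ i, k i ≤ 3 * mean k := fun i => by
    rw [mean3]
    have h0 := hk 0; have h1 := hk 1; have h2 := hk 2
    fin_cases i <;> simp <;> linarith
  calc ∏ i, k i ≤ ∏ _i : Fin 3, 3 * mean k := Finset.prod_le_prod (fun i _ => hk i) fun i _ => h i
    _ = 27 * mean k ^ 3 := by simp [Finset.prod_const]; ring

theorem sum_sq_le_mean {k : Fin 3 → ℝ} (hk : ∀ i, 0 ≤ k i) : ∑ i, k i ^ 2 ≤ 9 * mean k ^ 2 := by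
  rw [mean3, Fin.sum_univ_three]
  nlinarith [mul_nonneg (hk 0) (hk 1), mul_nonneg (hk 0) (hk 2), mul_nonneg (hk 1) (hk 2)]

theorem gauge_sqG : Gauge 3 sqG where
  homog c k hc hk := by
    unfold sqG
    rw [mean_mul_left]
    rcases hc.eq_or_lt with h | h
    · subst h; simp
    · simp only [mul_pow, ← Finset.mul_sum]
      rcases (mean_nonneg hk).eq_or_lt with h' | h'
      · rw [← h']; simp
      · field_simp
  symm π k := by
    unfold sqG
    rw [mean_perm, Equiv.sum_comp π fun i => k i ^ 2]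
  bdd := ⟨9, fun k hk => by
    have hm := mean_nonneg hk
    unfold sqG
    rw [abs_of_nonneg (div_nonneg (Finset.sum_nonneg fun i _ => sq_nonneg _) hm)]
    rcases hm.eq_or_lt with h | h
    · rw [← h]; simp
    · rw [div_le_iff₀ h]
      have := sum_sq_le_mean hk
      nlinarith⟩

theorem gauge_prG : Gauge 3 prG where
  homog c k hc hk := by
    unfold prG
    rw [mean_mul_left]
    rcases hc.eq_or_lt with h | h
    · subst h; simp
    · rw [Finset.prod_mul_distrib, Finset.prod_const]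
      rcases (mean_nonneg hk).eq_or_lt with h' | h'
      · rw [← h']; simp
      · simp only [Finset.card_univ, Fintype.card_fin]
        field_simp
  symm π k := by
    unfold prG
    rw [mean_perm, Equiv.prod_comp π fun i => k i]
  bdd := ⟨27, fun k hk => by
    have hm := mean_nonneg hk
    unfold prG
    rw [abs_of_nonneg (div_nonneg (Finset.prod_nonneg fun i _ => hk i) (by positivity))]
    rcases hm.eq_or_lt with h | h
    · rw [← h]; simp
    · rw [div_le_iff₀ (by positivity)]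
      have := prod_le_mean hk
      nlinarith⟩

theorem gauge_rtG : Gauge 3 rtG where
  homog c k hc hk := by
    unfold rtG
    rw [mean_mul_left]
    rcases hc.eq_or_lt with h | h
    · subst h; simp
    · rw [Finset.prod_mul_distrib, Finset.prod_const]
      have e : c ^ (Finset.univ : Finset (Fin 3)).card * (∏ i, k i) / (c * mean k) =
          c ^ 2 * ((∏ i, k i) / mean k) := by
        simp only [Finset.card_univ, Fintype.card_fin]
        rcases (mean_nonneg hk).eq_or_lt with h' | h'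
        · rw [← h']; simp
        · field_simp
      rw [e, Real.sqrt_mul (by positivity), Real.sqrt_sq hc]
  symm π k := by
    unfold rtG
    rw [mean_perm, Equiv.prod_comp π fun i => k i]
  bdd := ⟨6, fun k hk => by
    have hm := mean_nonneg hk
    unfold rtG
    rw [abs_of_nonneg (Real.sqrt_nonneg _)]
    rw [Real.sqrt_le_left (by positivity)]
    rcases hm.eq_or_lt with h | h
    · rw [← h]; simp
    · rw [div_le_iff₀ h]
      have := prod_le_mean hk
      nlinarith [pow_pos h 3]⟩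

noncomputable def PhiG (k : Fin 3 → ℝ) : ℝ := sqG k - 3 * mean k

noncomputable def PsiG (k : Fin 3 → ℝ) : ℝ :=
  (1 / 2 * sqG k + 1 / 2 * prG k + rtG k) - 3 * mean k

noncomputable def kapG (k : Fin 3 → ℝ) : ℝ := 16 / 15 * (mean k - prG k)

theorem gauge_PhiG : Gauge 3 PhiG := gauge_sqG.sub (gauge_mean.const_mul 3)

theorem gauge_PsiG : Gauge 3 PsiG :=
  (((gauge_sqG.const_mul (1 / 2)).add (gauge_prG.const_mul (1 / 2))).add gauge_rtG).sub
    (gauge_mean.const_mul 3)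

theorem gauge_kapG : Gauge 3 kapG := (gauge_mean.sub gauge_prG).const_mul (16 / 15)

/-! ### Reduction to mean one -/

theorem univ_perm3 : (Finset.univ : Finset (Equiv.Perm (Fin 3))) =
    {1, Equiv.swap 0 1, Equiv.swap 0 2, Equiv.swap 1 2, finRotate 3, (finRotate 3)⁻¹} := by
  decide

theorem sum_perm3 (F : Equiv.Perm (Fin 3) → ℝ) : ∑ π, F π = F 1 + F (Equiv.swap 0 1) +
    F (Equiv.swap 0 2) + F (Equiv.swap 1 2) + F (finRotate 3) + F (finRotate 3)⁻¹ := by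
  rw [univ_perm3]
  rw [Finset.sum_insert (by decide), Finset.sum_insert (by decide), Finset.sum_insert (by decide),
    Finset.sum_insert (by decide), Finset.sum_insert (by decide), Finset.sum_singleton]
  ring

theorem PhiG_eq (k : Fin 3 → ℝ) : PhiG k = ph3 (k 0) (k 1) (k 2) := by
  simp [PhiG, sqG, mean3, ph3, Fin.sum_univ_three]

theorem PsiG_eq (k : Fin 3 → ℝ) : PsiG k = ps3 (k 0) (k 1) (k 2) := by
  simp only [PsiG, sqG, prG, rtG, mean3, ps3, Fin.sum_univ_three, Fin.prod_univ_three]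
  have e1 : 1 / 2 * ((k 0 ^ 2 + k 1 ^ 2 + k 2 ^ 2) / ((k 0 + k 1 + k 2) / 3)) =
    (k 0 ^ 2 + k 1 ^ 2 + k 2 ^ 2) / (2 * ((k 0 + k 1 + k 2) / 3)) := by
    rw [mul_comm 2, div_mul_eq_div_div]; ring
  have e2 : 1 / 2 * (k 0 * k 1 * k 2 / ((k 0 + k 1 + k 2) / 3) ^ 2) =
    k 0 * k 1 * k 2 / (2 * ((k 0 + k 1 + k 2) / 3) ^ 2) := by
    rw [mul_comm 2, div_mul_eq_div_div]; ring
  rw [e1, e2]; ring

theorem star_six (F : ℝ → ℝ → ℝ → ℝ) (k l : Fin 3 → ℝ) :
    star (fun k : Fin 3 → ℝ => F (k 0) (k 1) (k 2)) k l =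
      six (fun b1 b2 b3 => F ((1 + (k 0 - 1)) * (1 + b1)) ((1 + (k 1 - 1)) * (1 + b2))
        (k 2 * (1 + b3))) (l 0 - 1) (l 1 - 1) (l 2 - 1) / 6 := by
  unfold star six
  rw [sum_perm3]
  have e0 : (finRotate 3) 0 = 1 := by decide
  have e1 : (finRotate 3) 1 = 2 := by decide
  have e2 : (finRotate 3) 2 = 0 := by decide
  have f0 : (finRotate 3)⁻¹ 0 = 2 := by decide
  have f1 : (finRotate 3)⁻¹ 1 = 0 := by decide
  have f2 : (finRotate 3)⁻¹ 2 = 1 := by decide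
  have g1 : (Equiv.swap (0 : Fin 3) 1) 2 = 2 := by decide
  have g2 : (Equiv.swap (0 : Fin 3) 2) 1 = 1 := by decide
  have g3 : (Equiv.swap (1 : Fin 3) 2) 0 = 0 := by decide
  simp only [Equiv.Perm.coe_one, id, Equiv.swap_apply_left, Equiv.swap_apply_right, e0, e1, e2,
    f0, f1, f2, g1, g2, g3, add_sub_cancel]
  norm_num [Nat.factorial]
  ring

theorem star_homog {Φ : (Fin 3 → ℝ) → ℝ} (hΦ : Gauge 3 Φ) {a b : ℝ} (ha : 0 ≤ a) (hb : 0 ≤ b)
    {k l : Fin 3 → ℝ} (hk : ∀ i, 0 ≤ k i) (hl : ∀ i, 0 ≤ l i) :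
    star Φ (fun i => a * k i) (fun i => b * l i) = a * b * star Φ k l := by
  unfold star
  rw [← mul_div_assoc, Finset.mul_sum]
  congr 1
  refine Finset.sum_congr rfl fun π _ => ?_
  rw [← hΦ.homog (a * b) (fun i => k i * l (π i)) (mul_nonneg ha hb)
    (fun i => mul_nonneg (hk i) (hl _))]
  congr 1
  funext i
  ring

/-- Every nonnegative vector is a nonnegative multiple of one with mean `1`. -/
theorem exists_norm {k : Fin 3 → ℝ} (hk : ∀ i, 0 ≤ k i) :
    ∃ (a : ℝ) (k' : Fin 3 → ℝ), 0 ≤ a ∧ (∀ i, 0 ≤ k' i) ∧ mean k' = 1 ∧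
      k = fun i => a * k' i := by
  rcases (mean_nonneg hk).eq_or_lt with h | h
  · refine ⟨0, fun _ => 1, le_rfl, fun _ => zero_le_one, by simp [mean], ?_⟩
    rw [mean3] at h
    have h0 := hk 0; have h1 := hk 1; have h2 := hk 2
    funext i
    fin_cases i <;> simp <;> linarith
  · refine ⟨mean k, fun i => k i / mean k, h.le, fun i => div_nonneg (hk i) h.le, ?_, ?_⟩
    · have : (fun i => k i / mean k) = fun i => (mean k)⁻¹ * k i := by
        funext i; rw [div_eq_inv_mul]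
      rw [this, mean_mul_left]
      exact inv_mul_cancel₀ h.ne'
    · funext i
      field_simp

theorem adm_of {k : Fin 3 → ℝ} (hk : ∀ i, 0 ≤ k i) (hm : mean k = 1) :
    Adm (k 0 - 1) (k 1 - 1) ∧ k 2 = 1 - (k 0 - 1) - (k 1 - 1) := by
  rw [mean3] at hm
  have h2 : k 2 = 1 - (k 0 - 1) - (k 1 - 1) := by linarith
  exact ⟨⟨by linarith [hk 0], by linarith [hk 1], by linarith [hk 2]⟩, h2⟩

theorem PhiG_norm {k : Fin 3 → ℝ} (hm : mean k = 1) :
    PhiG k = 6 * UU (k 0 - 1) (k 1 - 1) := by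
  have h := hm
  rw [mean3] at h
  have h2 : k 2 = 3 - k 0 - k 1 := by linarith
  unfold PhiG sqG UU
  rw [hm, Fin.sum_univ_three, h2]
  ring

theorem prod_norm {k : Fin 3 → ℝ} (hm : mean k = 1) :
    ∏ i, k i = 1 - 3 * UU (k 0 - 1) (k 1 - 1) + ZZ (k 0 - 1) (k 1 - 1) := by
  rw [mean3] at hm
  have h2 : k 2 = 3 - k 0 - k 1 := by linarith
  rw [Fin.prod_univ_three, h2]
  unfold UU ZZ
  ring

theorem PsiG_norm {k : Fin 3 → ℝ} (hm : mean k = 1) :
    PsiG k = ps (UU (k 0 - 1) (k 1 - 1)) (ZZ (k 0 - 1) (k 1 - 1)) := by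
  have e1 := PhiG_norm hm
  have e2 := prod_norm hm
  unfold PsiG prG rtG ps
  unfold PhiG at e1
  rw [hm] at e1 ⊢
  rw [e2]
  have : sqG k = 6 * UU (k 0 - 1) (k 1 - 1) + 3 := by linarith
  rw [this]
  simp only [one_pow, div_one]
  ring

theorem prG_norm {k : Fin 3 → ℝ} (hm : mean k = 1) :
    prG k = 1 - 3 * UU (k 0 - 1) (k 1 - 1) + ZZ (k 0 - 1) (k 1 - 1) := by
  unfold prG
  rw [prod_norm hm, hm]
  simp

theorem kapG_norm {k : Fin 3 → ℝ} (hm : mean k = 1) :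
    kapG k = 16 / 15 * (3 * UU (k 0 - 1) (k 1 - 1) - ZZ (k 0 - 1) (k 1 - 1)) := by
  unfold kapG
  rw [prG_norm hm, hm]
  ring

theorem closure3 (k l : Fin 3 → ℝ) (hk : ∀ i, 0 ≤ k i) (hl : ∀ i, 0 ≤ l i) :
    prG l * PsiG k + prG k * PsiG l ≤ star PsiG k l := by
  obtain ⟨a, k', ha, hk', hm, rfl⟩ := exists_norm hk
  obtain ⟨b, l', hb, hl', hm', rfl⟩ := exists_norm hl
  rw [star_homog gauge_PsiG ha hb hk' hl', gauge_prG.homog b l' hb hl', gauge_prG.homog a k' ha hk',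
    gauge_PsiG.homog b l' hb hl', gauge_PsiG.homog a k' ha hk']
  have key : prG l' * PsiG k' + prG k' * PsiG l' ≤ star PsiG k' l' := by
    rw [prG_norm hm, prG_norm hm', PsiG_norm hm, PsiG_norm hm']
    obtain ⟨A, e2⟩ := adm_of hk' hm
    obtain ⟨B, e2'⟩ := adm_of hl' hm'
    refine (closure_norm A B).trans_eq ?_
    have e : PsiG = fun k : Fin 3 → ℝ => ps3 (k 0) (k 1) (k 2) := funext PsiG_eq
    rw [e, star_six, e2]
    have : l' 2 - 1 = -(l' 0 - 1) - (l' 1 - 1) := by rw [e2']; ring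
    rw [this]
  have h := mul_le_mul_of_nonneg_left key (mul_nonneg ha hb)
  nlinarith

theorem subadd3 (k l : Fin 3 → ℝ) (hk : ∀ i, 0 ≤ k i) (hl : ∀ i, 0 ≤ l i) :
    star PhiG k l ≤ mean l * PhiG k + mean k * PhiG l - 1 / 2000 * (PhiG k * PhiG l)
      - kapG l * PsiG k - kapG k * PsiG l := by
  obtain ⟨a, k', ha, hk', hm, rfl⟩ := exists_norm hk
  obtain ⟨b, l', hb, hl', hm', rfl⟩ := exists_norm hl
  rw [star_homog gauge_PhiG ha hb hk' hl', gauge_kapG.homog b l' hb hl',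
    gauge_kapG.homog a k' ha hk', gauge_PsiG.homog b l' hb hl', gauge_PsiG.homog a k' ha hk',
    gauge_PhiG.homog b l' hb hl', gauge_PhiG.homog a k' ha hk', mean_mul_left, mean_mul_left]
  have key : star PhiG k' l' ≤ mean l' * PhiG k' + mean k' * PhiG l'
      - 1 / 2000 * (PhiG k' * PhiG l') - kapG l' * PsiG k' - kapG k' * PsiG l' := by
    rw [kapG_norm hm, kapG_norm hm', PsiG_norm hm, PsiG_norm hm', PhiG_norm hm, PhiG_norm hm',
      hm, hm']
    obtain ⟨A, e2⟩ := adm_of hk' hm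
    obtain ⟨B, e2'⟩ := adm_of hl' hm'
    refine le_trans (le_of_eq ?_) ((subadd_norm A B).trans (by linarith))
    have e : PhiG = fun k : Fin 3 → ℝ => ph3 (k 0) (k 1) (k 2) := funext PhiG_eq
    rw [e, star_six, e2]
    have : l' 2 - 1 = -(l' 0 - 1) - (l' 1 - 1) := by rw [e2']; ring
    rw [this]
  have h := mul_le_mul_of_nonneg_left key (mul_nonneg ha hb)
  nlinarith

/-! ### Edge -/

theorem noise_norm {lam : ℝ} {k : Fin 3 → ℝ} (hm : mean k = 1) (i : Fin 3) :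
    noise lam k i - 1 = lam * (k i - 1) := by
  unfold noise
  rw [hm]; ring

theorem UU_noise {lam : ℝ} {k : Fin 3 → ℝ} (hm : mean k = 1) :
    UU (noise lam k 0 - 1) (noise lam k 1 - 1) = lam ^ 2 * UU (k 0 - 1) (k 1 - 1) := by
  rw [noise_norm hm, noise_norm hm]
  unfold UU; ring

theorem ZZ_noise {lam : ℝ} {k : Fin 3 → ℝ} (hm : mean k = 1) :
    ZZ (noise lam k 0 - 1) (noise lam k 1 - 1) = lam ^ 3 * ZZ (k 0 - 1) (k 1 - 1) := by
  rw [noise_norm hm, noise_norm hm]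
  unfold ZZ; ring

theorem edgePhi3 {lam : ℝ} (hlam : -(1 / (((3 : ℕ) : ℝ) - 1)) ≤ lam) (hlam1 : lam ≤ 1)
    (k : Fin 3 → ℝ) (hk : ∀ i, 0 ≤ k i) : PhiG (noise lam k) = lam ^ 2 * PhiG k := by
  obtain ⟨a, k', ha, hk', hm, rfl⟩ := exists_norm hk
  have h1 := (gauge_PhiG.comp_noise (by norm_num) hlam hlam1).homog a k' ha hk'
  rw [h1, gauge_PhiG.homog a k' ha hk']
  have h2 : PhiG (noise lam k') = lam ^ 2 * PhiG k' := by
    rw [PhiG_norm hm, PhiG_norm ((mean_noise (by norm_num) lam k').trans hm), UU_noise hm]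
    ring
  rw [h2]; ring

theorem edgePsi3 {lam : ℝ} (h0 : 0 ≤ lam) (h1 : lam ≤ 1) (k : Fin 3 → ℝ) (hk : ∀ i, 0 ≤ k i) :
    lam ^ 3 * PsiG k ≤ PsiG (noise lam k) := by
  have hlam : -(1 / (((3 : ℕ) : ℝ) - 1)) ≤ lam := by norm_num; linarith
  obtain ⟨a, k', ha, hk', hm, rfl⟩ := exists_norm hk
  have e1 := (gauge_PsiG.comp_noise (by norm_num) hlam h1).homog a k' ha hk'
  rw [e1, gauge_PsiG.homog a k' ha hk']
  have h2 : lam ^ 3 * PsiG k' ≤ PsiG (noise lam k') := by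
    rw [PsiG_norm hm, PsiG_norm ((mean_noise (by norm_num) lam k').trans hm), UU_noise hm,
      ZZ_noise hm]
    obtain ⟨A, -⟩ := adm_of hk' hm
    exact ps_noise h0 h1 (Adm.u_nonneg _ _) A.prod_nonneg (by linarith [A.prod_le]) A.sqrt_prod_le
  nlinarith [mul_le_mul_of_nonneg_left h2 ha]

/-! ### Elementary facts -/

theorem PhiG_nonneg (k : Fin 3 → ℝ) (hk : ∀ i, 0 ≤ k i) : 0 ≤ PhiG k := by
  obtain ⟨a, k', ha, hk', hm, rfl⟩ := exists_norm hk
  rw [gauge_PhiG.homog a k' ha hk', PhiG_norm hm]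
  have := Adm.u_nonneg (k' 0 - 1) (k' 1 - 1)
  positivity

theorem prG_nonneg (k : Fin 3 → ℝ) (hk : ∀ i, 0 ≤ k i) : 0 ≤ prG k :=
  div_nonneg (Finset.prod_nonneg fun i _ => hk i) (by positivity)

theorem kapG_nonneg (k : Fin 3 → ℝ) (hk : ∀ i, 0 ≤ k i) : 0 ≤ kapG k := by
  obtain ⟨a, k', ha, hk', hm, rfl⟩ := exists_norm hk
  rw [gauge_kapG.homog a k' ha hk', kapG_norm hm]
  obtain ⟨A, -⟩ := adm_of hk' hm
  have := A.prod_le
  have : 0 ≤ 3 * UU (k' 0 - 1) (k' 1 - 1) - ZZ (k' 0 - 1) (k' 1 - 1) := by linarith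
  positivity

theorem PsiG_single (s : Fin 3) : 0 ≤ PsiG (fun i => if i = s then 1 else 0) := by
  have hm : mean (fun i : Fin 3 => if i = s then (1 : ℝ) else 0) = 1 / 3 := by
    simp [mean]
  have hp : ∏ i : Fin 3, (if i = s then (1 : ℝ) else 0) = 0 := by
    fin_cases s <;> simp [Fin.prod_univ_three]
  have hs : ∑ i : Fin 3, (if i = s then (1 : ℝ) else 0) ^ 2 = 1 := by
    fin_cases s <;> simp
  unfold PsiG sqG prG rtG
  rw [hm, hp, hs]
  norm_num

theorem PsiG_one : PsiG (fun _ => 1) = 0 := by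
  have hm : mean (fun _ : Fin 3 => (1 : ℝ)) = 1 := by simp [mean]
  unfold PsiG sqG prG rtG
  rw [hm]
  norm_num

theorem PhiG_one : PhiG (fun _ => 1) = 0 := by
  have hm : mean (fun _ : Fin 3 => (1 : ℝ)) = 1 := by simp [mean]
  unfold PhiG sqG
  rw [hm]
  norm_num

theorem control3 (ε : ℝ) (hε : 0 < ε) : ∃ M : ℝ, ∀ k : Fin 3 → ℝ, (∀ i, 0 ≤ k i) →
    ∑ i, |k i - mean k| ≤ ε * mean k + M * PhiG k := by
  refine ⟨1 / ε, fun k hk => ?_⟩
  obtain ⟨a, k', ha, hk', hm, rfl⟩ := exists_norm hk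
  rw [mean_mul_left, gauge_PhiG.homog a k' ha hk']
  have key : ∑ i, |k' i - 1| ≤ ε * 1 + 1 / ε * PhiG k' := by
    have e1 : PhiG k' = ∑ i, (k' i - 1) ^ 2 := by
      have hs : ∑ i, k' i = 3 := by
        rw [mean3] at hm
        rw [Fin.sum_univ_three]; linarith
      unfold PhiG sqG
      rw [hm]
      simp only [Fin.sum_univ_three] at hs ⊢
      nlinarith
    have e2 : ∀ i, |k' i - 1| ≤ ε / 3 + 1 / ε * (k' i - 1) ^ 2 := fun i => by
      have h1 : 1 / ε * (k' i - 1) ^ 2 = |k' i - 1| ^ 2 / ε := by rw [sq_abs]; ring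
      rw [h1, ← sub_nonneg]
      have h2 : ε / 3 + |k' i - 1| ^ 2 / ε - |k' i - 1| =
          ((|k' i - 1| - ε / 2) ^ 2 + ε ^ 2 / 12) / ε := by
        field_simp; ring
      rw [h2]; positivity
    calc ∑ i, |k' i - 1| ≤ ∑ i, (ε / 3 + 1 / ε * (k' i - 1) ^ 2) :=
          Finset.sum_le_sum fun i _ => e2 i
      _ = ε * 1 + 1 / ε * PhiG k' := by
        rw [e1, Finset.sum_add_distrib, ← Finset.mul_sum]
        simp
        ring
  have e3 : ∑ i, |a * k' i - a * mean k'| = a * ∑ i, |k' i - 1| := by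
    rw [Finset.mul_sum]
    refine Finset.sum_congr rfl fun i _ => ?_
    rw [hm, ← mul_sub, abs_mul, abs_of_nonneg ha]
  rw [e3, hm]
  nlinarith [mul_le_mul_of_nonneg_left key ha]

/-- Nonreconstruction for the three-state ferromagnetic Potts channel at and below the
Kesten-Stigum bound, on every Galton-Watson tree. -/
theorem adv3_tendsto_zero {lam : ℝ} (h0 : 0 < lam) (h1 : lam ≤ 1) {ξ : ℕ → ℝ}
    (hξ : ∀ k, 0 ≤ ξ k) (hξ1 : HasSum ξ 1) {m : ℝ}
    (hξm : HasSum (fun k : ℕ => (k : ℝ) * ξ k) m) (hcrit : m * lam ^ 2 ≤ 1)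
    (hbranch : ∃ k, 2 ≤ k ∧ 0 < ξ k) : Tendsto (adv 3 lam ξ) atTop (𝓝 0) := by
  have hlam : -(1 / (((3 : ℕ) : ℝ) - 1)) ≤ lam := by norm_num; linarith
  exact adv_tendsto_zero (by norm_num) hlam h1 h0.ne' (κ₀ := 1 / 2000) (by norm_num)
    gauge_PhiG gauge_PsiG gauge_prG gauge_kapG PhiG_nonneg prG_nonneg kapG_nonneg
    PsiG_single PsiG_one.ge PhiG_one (edgePhi3 hlam h1) (c := lam ^ 3) (by positivity)
    (edgePsi3 h0.le h1) closure3 subadd3 control3 hξ hξ1 hξm hcrit hbranch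

/-- Without correlation along the edges nothing is seen. -/
theorem adv_lam_zero {q : ℕ} (hq : 2 ≤ q) {ξ : ℕ → ℝ} (hξ : ∀ k, 0 ≤ ξ k) (hξ1 : HasSum ξ 1) :
    Tendsto (adv q 0 ξ) atTop (𝓝 0) := by
  have hlam : -(1 / ((q : ℝ) - 1)) ≤ 0 := by
    have : (2 : ℝ) ≤ q := by exact_mod_cast hq
    have h2 : 0 ≤ 1 / ((q : ℝ) - 1) := by
      apply div_nonneg zero_le_one; linarith
    linarith
  have hq0 : (q : ℝ) ≠ 0 := by
    have : q ≠ 0 := by omega
    exact_mod_cast this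
  refine (tendsto_add_atTop_iff_nat 1).1 ?_
  have h : ∀ n, adv q 0 ξ (n + 1) = 0 := fun n => by
    rw [adv_eq hq hlam zero_le_one hξ hξ1]
    have key : ∀ ω : Obs q (n + 1),
        ∑ i, |lik q 0 ξ (n + 1) ω i - mean (lik q 0 ξ (n + 1) ω)| = 0 := by
      rintro ⟨k, ω⟩
      have e : lik q 0 ξ (n + 1) ⟨k, ω⟩ = fun _ => ξ k * ∏ j, mean (lik q 0 ξ n (ω j)) := by
        funext i
        change ξ k * ∏ j, ∑ s, potts q 0 i s * lik q 0 ξ n (ω j) s = _
        simp only [sum_potts]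
        simp [noise]
      have hm : ∀ c : ℝ, mean (fun _ : Fin q => c) = c := fun c => by
        unfold mean; simp; field_simp
      rw [e, hm]; simp
    unfold avg
    simp only [key]
    rw [tsum_zero, mul_zero]
  simp only [h]
  exact tendsto_const_nhds

end Vale.Agent.P154
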