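import Vale.Agent.P154.Abstract

open Filter Topology

namespace Vale.Agent.P154

variable {q : ℕ}

theorem hasSum_congr {β : Type*} {f g : β → ℝ} {a : ℝ} (h : ∀ b, f b = g b) :
    HasSum f a ↔ HasSum g a := by rw [show f = g from funext h]

/-- `w` is a probability weight, and `Z` has first moment `μ` and second moment `ν` under it. -/
structure Mom {Ω : Type*} (w Z : Ω → ℝ) (μ ν : ℝ) : Prop where
  nonneg : ∀ ω, 0 ≤ w ω
  zero : HasSum w 1
  one : HasSum (fun ω => w ω * Z ω) μ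
  two : HasSum (fun ω => w ω * Z ω ^ 2) ν

namespace Mom

variable {Ω Ω' : Type*} {w Z : Ω → ℝ} {w' Z' : Ω' → ℝ} {μ ν μ' ν' : ℝ}

theorem const_mul (h : Mom w Z μ ν) (c : ℝ) : Mom w (fun ω => c * Z ω) (c * μ) (c ^ 2 * ν) where
  nonneg := h.nonneg
  zero := h.zero
  one := (hasSum_congr fun ω => by ring).2 (h.one.mul_left c)
  two := (hasSum_congr fun ω => by ring).2 (h.two.mul_left (c ^ 2))

theorem congr_equiv (h : Mom w Z μ ν) (e : Ω' ≃ Ω) :
    Mom (fun ω => w (e ω)) (fun ω => Z (e ω)) μ ν where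
  nonneg _ := h.nonneg _
  zero := (e.hasSum_iff (f := w)).2 h.zero
  one := (e.hasSum_iff (f := fun ω => w ω * Z ω)).2 h.one
  two := (e.hasSum_iff (f := fun ω => w ω * Z ω ^ 2)).2 h.two

theorem prod (h : Mom w Z μ ν) (h' : Mom w' Z' μ' ν') :
    Mom (fun p : Ω × Ω' => w p.1 * w' p.2) (fun p => Z p.1 + Z' p.2) (μ + μ')
      (ν + 2 * (μ * μ') + ν') := by
  have key : ∀ {f : Ω → ℝ} {g : Ω' → ℝ} {a b : ℝ}, HasSum f a → HasSum g b →
      HasSum (fun p : Ω × Ω' => f p.1 * g p.2) (a * b) := fun {f g a b} hf hg =>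
    hf.mul hg (summable_mul_of_summable_norm hf.summable.norm hg.summable.norm)
  refine ⟨fun p => mul_nonneg (h.nonneg _) (h'.nonneg _), ?_, ?_, ?_⟩
  · simpa using key h.zero h'.zero
  · have h1 := (key h.one h'.zero).add (key h.zero h'.one)
    rw [mul_one, one_mul] at h1
    exact (hasSum_congr fun p => by ring).2 h1
  · have h1 := ((key h.two h'.zero).add ((key h.one h'.one).mul_left 2)).add (key h.zero h'.two)
    rw [mul_one, one_mul] at h1
    exact (hasSum_congr fun p => by ring).2 h1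

theorem pi (h : Mom w Z μ ν) : ∀ k : ℕ, Mom (fun ω : Fin k → Ω => ∏ j, w (ω j))
    (fun ω => ∑ j, Z (ω j)) (k * μ) (k * ν + k * (k - 1) * μ ^ 2)
  | 0 => by
    refine ⟨fun ω => by simp, ?_, ?_, ?_⟩ <;> simp
  | k + 1 => by
    have h1 := (h.prod (pi h k)).congr_equiv (Fin.consEquiv (fun _ : Fin (k + 1) => Ω)).symm
    have e1 : (fun ω : Fin (k + 1) → Ω => ∏ j, w (ω j)) =
        fun ω => w ((Fin.consEquiv (fun _ : Fin (k + 1) => Ω)).symm ω).1 *
          ∏ j, w (((Fin.consEquiv (fun _ : Fin (k + 1) => Ω)).symm ω).2 j) := by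
      funext ω
      rw [Fin.prod_univ_succ]
      rfl
    have e2 : (fun ω : Fin (k + 1) → Ω => ∑ j, Z (ω j)) =
        fun ω => Z ((Fin.consEquiv (fun _ : Fin (k + 1) => Ω)).symm ω).1 +
          ∑ j, Z (((Fin.consEquiv (fun _ : Fin (k + 1) => Ω)).symm ω).2 j) := by
      funext ω
      rw [Fin.sum_univ_succ]
      rfl
    rw [e1, e2]
    convert h1 using 1
    · push_cast; ring
    · push_cast; ring

/-- finite convex combination of the weights -/
theorem convex {ι : Type*} (s : Finset ι) {p : ι → ℝ} (hp : ∀ r ∈ s, 0 ≤ p r) (hp1 : ∑ r ∈ s, p r = 1)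
    {w : ι → Ω → ℝ} {μ ν : ι → ℝ} (h : ∀ r ∈ s, Mom (w r) Z (μ r) (ν r)) :
    Mom (fun ω => ∑ r ∈ s, p r * w r ω) Z (∑ r ∈ s, p r * μ r) (∑ r ∈ s, p r * ν r) where
  nonneg ω := Finset.sum_nonneg fun r hr => mul_nonneg (hp r hr) ((h r hr).nonneg ω)
  zero := by
    have h1 := hasSum_sum fun r hr => ((h r hr).zero.mul_left (p r))
    simpa [hp1] using h1
  one := by
    have h1 := hasSum_sum fun r hr => ((h r hr).one.mul_left (p r))
    refine (hasSum_congr fun ω => ?_).2 h1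
    rw [Finset.sum_mul]
    exact Finset.sum_congr rfl fun r _ => by ring
  two := by
    have h1 := hasSum_sum fun r hr => ((h r hr).two.mul_left (p r))
    refine (hasSum_congr fun ω => ?_).2 h1
    rw [Finset.sum_mul]
    exact Finset.sum_congr rfl fun r _ => by ring

/-- countable mixture -/
theorem mix {Ω : ℕ → Type*} {w Z : (k : ℕ) → Ω k → ℝ} {μ ν : ℕ → ℝ}
    (h : ∀ k, Mom (w k) (Z k) (μ k) (ν k)) {ξ : ℕ → ℝ} (hξ : ∀ k, 0 ≤ ξ k) (hξ1 : HasSum ξ 1)
    {M N : ℝ} (hM : HasSum (fun k => ξ k * μ k) M) (hN : HasSum (fun k => ξ k * ν k) N) :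
    Mom (fun p : Σ k, Ω k => ξ p.1 * w p.1 p.2) (fun p => Z p.1 p.2) M N := by
  have c0 : ∀ k, HasSum (fun ω : Ω k => ξ k * w k ω) (ξ k) := fun k => by
    simpa using (h k).zero.mul_left (ξ k)
  have c1 : ∀ k, HasSum (fun ω : Ω k => ξ k * w k ω * Z k ω) (ξ k * μ k) := fun k => by
    simpa [mul_assoc] using (h k).one.mul_left (ξ k)
  have c2 : ∀ k, HasSum (fun ω : Ω k => ξ k * w k ω * Z k ω ^ 2) (ξ k * ν k) := fun k => by
    simpa [mul_assoc] using (h k).two.mul_left (ξ k)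
  have n0 : ∀ p : Σ k, Ω k, 0 ≤ ξ p.1 * w p.1 p.2 := fun p => mul_nonneg (hξ _) ((h _).nonneg _)
  have s0 : Summable (fun p : Σ k, Ω k => ξ p.1 * w p.1 p.2) := by
    refine (summable_sigma_of_nonneg n0).2 ⟨fun k => (c0 k).summable, ?_⟩
    simp only [fun k => (c0 k).tsum_eq]
    exact hξ1.summable
  have s2 : Summable (fun p : Σ k, Ω k => ξ p.1 * w p.1 p.2 * Z p.1 p.2 ^ 2) := by
    refine (summable_sigma_of_nonneg fun p => mul_nonneg (n0 p) (sq_nonneg _)).2
      ⟨fun k => (c2 k).summable, ?_⟩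
    simp only [fun k => (c2 k).tsum_eq]
    exact hN.summable
  have s1 : Summable (fun p : Σ k, Ω k => ξ p.1 * w p.1 p.2 * Z p.1 p.2) := by
    refine Summable.of_norm_bounded (s0.add s2) fun p => ?_
    rw [Real.norm_eq_abs, abs_mul, abs_of_nonneg (n0 p), ← mul_one_add]
    refine mul_le_mul_of_nonneg_left ?_ (n0 p)
    rw [abs_le]
    constructor <;> nlinarith [sq_nonneg (Z p.1 p.2 - 1), sq_nonneg (Z p.1 p.2 + 1)]
  refine ⟨n0, ?_, ?_, ?_⟩
  · have h1 := s0.hasSum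
    rwa [(h1.sigma c0).unique hξ1] at h1
  · have h1 := s1.hasSum
    rwa [(h1.sigma c1).unique hM] at h1
  · have h1 := s2.hasSum
    rwa [(h1.sigma c2).unique hN] at h1

end Mom

/-- There is an unbiased estimator of `g` (root spin), linear in the spins of level `n`, with
second moments `ν i`. -/
def Est (q : ℕ) (lam : ℝ) (ξ : ℕ → ℝ) (n : ℕ) (g ν : Fin q → ℝ) : Prop :=
  ∃ Z : Obs q n → ℝ, ∀ i, Mom (fun ω => lik q lam ξ n ω i) Z (g i) (ν i)

theorem est_zero (hq : 2 ≤ q) {lam : ℝ} (hlam : -(1 / ((q : ℝ) - 1)) ≤ lam)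
    (hlam1 : lam ≤ 1) {ξ : ℕ → ℝ} (hξ : ∀ k, 0 ≤ ξ k) (hξ1 : HasSum ξ 1) (g : Fin q → ℝ) :
    Est q lam ξ 0 g (fun i => g i ^ 2) := by
  have hE := experiment_lik hq hlam hlam1 hξ hξ1 0
  have key : ∀ (f : Fin q → ℝ) (i : Fin q),
      HasSum (fun ω : Fin q => (if i = ω then (1 : ℝ) else 0) * f ω) (f i) := fun f i => by
    refine (hasSum_congr fun ω => ?_).2 (hasSum_ite_eq i (f i))
    by_cases h : i = ω
    · subst h; simp
    · rw [if_neg h, if_neg (Ne.symm h), zero_mul]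
  exact ⟨g, fun i => ⟨fun ω => hE.nonneg ω i, hE.hasSum i, key g i, key (fun j => g j ^ 2) i⟩⟩

theorem est_succ (hq : 2 ≤ q) {lam : ℝ} (hlam : -(1 / ((q : ℝ) - 1)) ≤ lam)
    (hlam1 : lam ≤ 1) {ξ : ℕ → ℝ} (hξ : ∀ k, 0 ≤ ξ k) (hξ1 : HasSum ξ 1) {m m₂ : ℝ}
    (hm : HasSum (fun k : ℕ => (k : ℝ) * ξ k) m)
    (hm₂ : HasSum (fun k : ℕ => (k : ℝ) * (k - 1) * ξ k) m₂) (hml : m * lam ≠ 0)
    {g ν : Fin q → ℝ} (hg : ∑ i, g i = 0) {n : ℕ} (h : Est q lam ξ n g ν) :
    Est q lam ξ (n + 1) g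
      (fun i => (1 / (m * lam)) ^ 2 * (m * noise lam ν i + m₂ * (lam * g i) ^ 2)) := by
  obtain ⟨Z, hZ⟩ := h
  have hq0 : (0 : ℝ) < q := by exact_mod_cast (by omega : 0 < q)
  refine ⟨fun p => 1 / (m * lam) * ∑ j, Z (p.2 j), fun i => ?_⟩
  -- one child
  have hpot : ∀ s ∈ (Finset.univ : Finset (Fin q)), 0 ≤ potts q lam i s := by
    intro s _
    have h1 := noise_nonneg hq hlam hlam1 (k := fun r => if r = s then (1 : ℝ) else 0)
      (fun r => by split_ifs <;> norm_num) i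
    rw [← sum_potts] at h1
    simpa using h1
  have hpot1 : ∑ s, potts q lam i s = 1 := by
    have h1 := sum_potts lam (fun _ : Fin q => (1 : ℝ)) i
    simp only [mul_one] at h1
    rw [h1]
    unfold noise mean
    simp [hq0.ne']
  have h1 := Mom.convex Finset.univ hpot hpot1 (fun s _ => hZ s)
  rw [sum_potts, sum_potts] at h1
  have hgi : noise lam g i = lam * g i := by
    unfold noise mean
    rw [hg]; simp
  rw [hgi] at h1
  have h2 := Mom.mix (fun k => h1.pi k) hξ hξ1 (M := m * (lam * g i))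
    (N := m * noise lam ν i + m₂ * (lam * g i) ^ 2)
    ((hasSum_congr fun k => by ring).2 (hm.mul_right (lam * g i)))
    ((hasSum_congr fun k => by ring).2 ((hm.mul_right (noise lam ν i)).add
      (hm₂.mul_right ((lam * g i) ^ 2))))
  have h3 := h2.const_mul (1 / (m * lam))
  have e1 : 1 / (m * lam) * (m * (lam * g i)) = g i := by
    rw [← mul_assoc, ← mul_assoc, mul_assoc (1 / (m * lam)), one_div_mul_cancel hml, one_mul]
  rw [e1] at h3
  have e2 : (fun ω : Obs q (n + 1) => lik q lam ξ (n + 1) ω i) = fun (p : Σ k : ℕ, (Fin k → Obs q n)) =>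
      ξ p.1 * ∏ j, ∑ r, potts q lam i r * lik q lam ξ n (p.2 j) r := by
    funext p
    obtain ⟨k, ω⟩ := p
    rfl
  rw [e2]
  exact h3

theorem exists_est (hq : 2 ≤ q) {lam : ℝ} (hlam : -(1 / ((q : ℝ) - 1)) ≤ lam)
    (hlam1 : lam ≤ 1) {ξ : ℕ → ℝ} (hξ : ∀ k, 0 ≤ ξ k) (hξ1 : HasSum ξ 1) {m m₂ : ℝ}
    (hm : HasSum (fun k : ℕ => (k : ℝ) * ξ k) m)
    (hm₂ : HasSum (fun k : ℕ => (k : ℝ) * (k - 1) * ξ k) m₂) (hKS : 1 < m * lam ^ 2)
    {g : Fin q → ℝ} (hg : ∑ i, g i = 0) :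
    ∃ C : ℝ, ∀ n, ∃ ν : Fin q → ℝ, Est q lam ξ n g ν ∧ mean ν ≤ C := by
  have hq0 : q ≠ 0 := by omega
  have hml2 : m * lam ^ 2 ≠ 0 := by linarith
  have hm0 : m ≠ 0 := left_ne_zero_of_mul hml2
  have hl0 : lam ≠ 0 := by
    intro h; rw [h] at hml2; simp at hml2
  have hml : m * lam ≠ 0 := mul_ne_zero hm0 hl0
  set r : ℝ := 1 / (m * lam ^ 2) with hr
  have hr0 : 0 ≤ r := by rw [hr]; exact div_nonneg zero_le_one (by linarith)
  have hr1 : r < 1 := by rw [hr, div_lt_one (by linarith)]; exact hKS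
  set c₀ := mean (fun i => g i ^ 2) with hc₀
  set b : ℝ := m₂ / m ^ 2 * c₀ with hb
  refine ⟨max c₀ (b / (1 - r)), fun n => ?_⟩
  induction n with
  | zero => exact ⟨_, est_zero hq hlam hlam1 hξ hξ1 g, le_max_left _ _⟩
  | succ n ih =>
    obtain ⟨ν, hν, hC⟩ := ih
    refine ⟨_, est_succ hq hlam hlam1 hξ hξ1 hm hm₂ hml hg hν, ?_⟩
    set C := max c₀ (b / (1 - r)) with hCdef
    have h1 : mean (fun i => (1 / (m * lam)) ^ 2 * (m * noise lam ν i + m₂ * (lam * g i) ^ 2)) =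
        r * mean ν + b := by
      have e1 : mean (fun i => m * noise lam ν i + m₂ * (lam * g i) ^ 2) =
          m * mean ν + m₂ * lam ^ 2 * c₀ := by
        have : mean (fun i => m * noise lam ν i + m₂ * (lam * g i) ^ 2) =
            m * mean (noise lam ν) + m₂ * lam ^ 2 * mean (fun i => g i ^ 2) := by
          unfold mean
          rw [Finset.sum_add_distrib, ← Finset.mul_sum, add_div, mul_div_assoc]
          congr 1
          rw [← mul_div_assoc]
          congr 1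
          rw [Finset.mul_sum]
          exact Finset.sum_congr rfl fun i _ => by ring
        rw [this, mean_noise hq0]
      rw [mean_mul_left, e1, hr, hb]
      field_simp
    rw [h1]
    have h2 : b / (1 - r) ≤ C := le_max_right _ _
    rw [div_le_iff₀ (by linarith)] at h2
    have h3 := mul_le_mul_of_nonneg_left hC hr0
    linarith

/-- An unbiased estimator with bounded variance bounds `adv` from below. -/
theorem adv_ge_of_est (hq : 2 ≤ q) {lam : ℝ} (hlam : -(1 / ((q : ℝ) - 1)) ≤ lam)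
    (hlam1 : lam ≤ 1) {ξ : ℕ → ℝ} (hξ : ∀ k, 0 ≤ ξ k) (hξ1 : HasSum ξ 1)
    {g : Fin q → ℝ} (hg : ∑ i, g i = 0) {n : ℕ} {ν : Fin q → ℝ} (h : Est q lam ξ n g ν)
    {B t : ℝ} (hB : ∀ i, |g i| ≤ B) (ht : 0 < t) :
    ∑ i, g i ^ 2 ≤ t / 2 * (q * mean ν) + B ^ 2 / t * (2 * q * adv q lam ξ n) := by
  obtain ⟨Z, hZ⟩ := h
  have hE := experiment_lik hq hlam hlam1 hξ hξ1 n
  have hq0 : (0 : ℝ) < q := by exact_mod_cast (by omega : 0 < q)
  have h1 : HasSum (fun ω => ∑ i, g i * (lik q lam ξ n ω i * Z ω)) (∑ i, g i * g i) :=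
    hasSum_sum fun i _ => (hZ i).one.mul_left (g i)
  have h2 : HasSum (fun ω => ∑ i, lik q lam ξ n ω i * Z ω ^ 2) (∑ i, ν i) :=
    hasSum_sum fun i _ => (hZ i).two
  have hmean : ∀ k : Fin q → ℝ, ∑ i, k i = q * mean k := fun k => by
    unfold mean; field_simp
  have hD : ∀ ω, ∑ i, |lik q lam ξ n ω i - mean (lik q lam ξ n ω)| ≤
      2 * q * mean (lik q lam ξ n ω) := fun ω => by
    have hm0 := mean_nonneg (hE.nonneg ω)
    calc ∑ i, |lik q lam ξ n ω i - mean (lik q lam ξ n ω)|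
        ≤ ∑ i, (lik q lam ξ n ω i + mean (lik q lam ξ n ω)) :=
          Finset.sum_le_sum fun i _ => by
            rw [abs_le]
            have := hE.nonneg ω i
            constructor <;> linarith
      _ = 2 * q * mean (lik q lam ξ n ω) := by
          rw [Finset.sum_add_distrib, hmean]
          simp
          ring
  have hDs : Summable fun ω => ∑ i, |lik q lam ξ n ω i - mean (lik q lam ξ n ω)| :=
    Summable.of_nonneg_of_le (fun ω => Finset.sum_nonneg fun i _ => abs_nonneg _) hD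
      (((hE.hasSum_mean (by omega)).summable).mul_left _)
  have h3 : HasSum (fun ω => ∑ i, |lik q lam ξ n ω i - mean (lik q lam ξ n ω)|)
      (2 * q * adv q lam ξ n) := by
    have : 2 * q * adv q lam ξ n =
        ∑' ω, ∑ i, |lik q lam ξ n ω i - mean (lik q lam ξ n ω)| := by
      rw [adv_eq hq hlam hlam1 hξ hξ1]
      unfold avg
      field_simp
    rw [this]
    exact hDs.hasSum
  have h4 := hasSum_le (fun ω => ?_) h1 ((h2.mul_left (t / 2)).add (h3.mul_left (B ^ 2 / t)))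
  · have e1 : ∑ i, g i * g i = ∑ i, g i ^ 2 := Finset.sum_congr rfl fun i _ => by ring
    rw [e1, hmean ν] at h4
    exact h4
  · set k := lik q lam ξ n ω with hk
    set D := ∑ i, |k i - mean k| with hDdef
    have hk0 := hE.nonneg ω
    have e1 : ∑ i, g i * (k i * Z ω) = (∑ i, g i * (k i - mean k)) * Z ω := by
      have : ∑ i, g i * (k i - mean k) = ∑ i, g i * k i := by
        simp only [mul_sub, Finset.sum_sub_distrib]
        rw [← Finset.sum_mul, hg]; simp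
      rw [this, Finset.sum_mul]
      exact Finset.sum_congr rfl fun i _ => by ring
    have e2 : |∑ i, g i * (k i - mean k)| ≤ B * D := by
      refine (Finset.abs_sum_le_sum_abs _ _).trans ?_
      rw [hDdef, Finset.mul_sum]
      exact Finset.sum_le_sum fun i _ => by
        rw [abs_mul]
        exact mul_le_mul_of_nonneg_right (hB i) (abs_nonneg _)
    have hD0 : 0 ≤ D := Finset.sum_nonneg fun i _ => abs_nonneg _
    have e3 : ∑ i, g i * (k i * Z ω) ≤ B * D * |Z ω| := by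
      rw [e1]
      refine (le_abs_self _).trans ?_
      rw [abs_mul]
      exact mul_le_mul_of_nonneg_right e2 (abs_nonneg _)
    have e4 : D / 2 * Z ω ^ 2 ≤ ∑ i, k i * Z ω ^ 2 := by
      rw [← Finset.sum_mul, hmean]
      refine mul_le_mul_of_nonneg_right ?_ (sq_nonneg _)
      have := hD ω
      rw [← hk, ← hDdef] at this
      linarith
    have e5 : B * |Z ω| ≤ t / 4 * Z ω ^ 2 + B ^ 2 / t := by
      have h5 : t / 4 * Z ω ^ 2 + B ^ 2 / t - B * |Z ω| = (t * |Z ω| - 2 * B) ^ 2 / (4 * t) := by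
        rw [← sq_abs (Z ω)]
        field_simp
        ring
      have h6 : 0 ≤ (t * |Z ω| - 2 * B) ^ 2 / (4 * t) := by positivity
      linarith
    have e6 := mul_le_mul_of_nonneg_left e5 hD0
    have e7 := mul_le_mul_of_nonneg_left e4 (by positivity : 0 ≤ t / 2)
    calc ∑ i, g i * (k i * Z ω) ≤ B * D * |Z ω| := e3
      _ ≤ D * (t / 4 * Z ω ^ 2 + B ^ 2 / t) := by linarith
      _ = t / 2 * (D / 2 * Z ω ^ 2) + B ^ 2 / t * D := by ring
      _ ≤ _ := by linarith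

/-- **Kesten-Stigum**: if `m lam ^ 2 > 1` then `adv` is bounded away from `0`. -/
theorem adv_bounded_below (hq : 2 ≤ q) {lam : ℝ} (hlam : -(1 / ((q : ℝ) - 1)) ≤ lam)
    (hlam1 : lam ≤ 1) {ξ : ℕ → ℝ} (hξ : ∀ k, 0 ≤ ξ k) (hξ1 : HasSum ξ 1) {m m₂ : ℝ}
    (hm : HasSum (fun k : ℕ => (k : ℝ) * ξ k) m)
    (hm₂ : HasSum (fun k : ℕ => (k : ℝ) * (k - 1) * ξ k) m₂) (hKS : 1 < m * lam ^ 2) :
    ∃ c : ℝ, 0 < c ∧ ∀ n, c ≤ adv q lam ξ n := by
  have hq0 : (0 : ℝ) < q := by exact_mod_cast (by omega : 0 < q)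
  set i0 : Fin q := ⟨0, by omega⟩ with hi0
  set i1 : Fin q := ⟨1, by omega⟩ with hi1
  have h01 : i0 ≠ i1 := by
    intro h
    have := congrArg Fin.val h
    simp [hi0, hi1] at this
  set g : Fin q → ℝ := fun i => (if i = i0 then 1 else 0) - (if i = i1 then 1 else 0) with hgdef
  have hg : ∑ i, g i = 0 := by
    simp [hgdef, Finset.sum_sub_distrib]
  have hg2 : ∑ i, g i ^ 2 = 2 := by
    have : ∀ i, g i ^ 2 = (if i = i0 then 1 else 0) + (if i = i1 then 1 else 0) := by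
      intro i
      by_cases h0 : i = i0
      · subst h0; simp [hgdef, h01]
      · by_cases h1 : i = i1
        · subst h1; simp [hgdef, h0]
        · simp [hgdef, h0, h1]
    simp only [this, Finset.sum_add_distrib]
    simp
    norm_num
  have hgB : ∀ i, |g i| ≤ 1 := by
    intro i
    simp only [hgdef]
    split_ifs <;> norm_num
  obtain ⟨C, hC⟩ := exists_est hq hlam hlam1 hξ hξ1 hm hm₂ hKS hg
  -- make `C` positive
  set C' := max C 1 with hC'
  have hC'0 : 0 < C' := lt_of_lt_of_le one_pos (le_max_right _ _)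
  refine ⟨1 / (q ^ 2 * C'), by positivity, fun n => ?_⟩
  obtain ⟨ν, hν, hνC⟩ := hC n
  have h1 := adv_ge_of_est hq hlam hlam1 hξ hξ1 hg hν hgB
    (t := 2 / (q * C')) (by positivity)
  rw [hg2] at h1
  have h2 : 2 / (q * C') / 2 * (q * mean ν) ≤ 1 := by
    have : 2 / (q * C') / 2 * (q * mean ν) = mean ν / C' := by field_simp
    rw [this, div_le_one hC'0]
    exact hνC.trans (le_max_left _ _)
  have h3 : (1 : ℝ) ^ 2 / (2 / (q * C')) * (2 * q * adv q lam ξ n) = q ^ 2 * C' * adv q lam ξ n := by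
    field_simp
  rw [h3] at h1
  rw [div_le_iff₀ (by positivity)]
  linarith

end Vale.Agent.P154
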