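import Vale.Agent.P154.Defs

open Filter Topology

namespace Vale.Agent.P154

theorem regular_nonneg (d k : ℕ) : 0 ≤ regular d k := by
  unfold regular
  split_ifs <;> norm_num

theorem hasSum_regular (d : ℕ) : HasSum (regular d) 1 := by
  have := hasSum_ite_eq d (1 : ℝ)
  exact this

theorem hasSum_regular_mul (d : ℕ) (f : ℕ → ℝ) :
    HasSum (fun k => f k * regular d k) (f d) := by
  have h := hasSum_ite_eq d (f d)
  convert h using 2 with k
  unfold regular
  by_cases hk : k = d
  · subst hk; simp
  · simp [hk]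

theorem poisson_pos {d : ℝ} (hd : 0 < d) (k : ℕ) : 0 < poisson d k := by
  unfold poisson
  positivity

theorem hasSum_poisson (d : ℝ) : HasSum (poisson d) 1 := by
  have h := (NormedSpace.expSeries_div_hasSum_exp d).mul_left (Real.exp (-d))
  rw [← Real.exp_eq_exp_ℝ, ← Real.exp_add, neg_add_cancel, Real.exp_zero] at h
  have e : poisson d = fun k => Real.exp (-d) * (d ^ k / (k.factorial : ℝ)) := by
    funext k
    unfold poisson
    rw [mul_div_assoc]
  rw [e]
  exact h

theorem poisson_succ (d : ℝ) (k : ℕ) : ((k + 1 : ℕ) : ℝ) * poisson d (k + 1) = d * poisson d k := by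
  unfold poisson
  rw [Nat.factorial_succ]
  push_cast
  have : ((k.factorial : ℕ) : ℝ) ≠ 0 := by exact_mod_cast k.factorial_ne_zero
  field_simp
  ring

theorem hasSum_poisson_mean (d : ℝ) : HasSum (fun k : ℕ => (k : ℝ) * poisson d k) d := by
  refine (hasSum_nat_add_iff' 1).1 ?_
  simp only [poisson_succ, Finset.range_one, Finset.sum_singleton, Nat.cast_zero, zero_mul, sub_zero]
  simpa using (hasSum_poisson d).mul_left d

theorem hasSum_poisson_two (d : ℝ) :
    HasSum (fun k : ℕ => (k : ℝ) * (k - 1) * poisson d k) (d ^ 2) := by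
  refine (hasSum_nat_add_iff' 1).1 ?_
  have h : ∀ k : ℕ, ((k + 1 : ℕ) : ℝ) * (((k + 1 : ℕ) : ℝ) - 1) * poisson d (k + 1) =
      d * (k * poisson d k) := fun k => by
    have := poisson_succ d k
    push_cast at this ⊢
    calc ((k : ℝ) + 1) * ((k : ℝ) + 1 - 1) * poisson d (k + 1)
        = k * (((k : ℝ) + 1) * poisson d (k + 1)) := by ring
      _ = d * (k * poisson d k) := by rw [this]; ring
  simp only [h, Finset.range_one, Finset.sum_singleton, Nat.cast_zero, zero_mul, sub_zero]
  have := (hasSum_poisson_mean d).mul_left d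
  rwa [← sq] at this

end Vale.Agent.P154
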