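import Vale.Agent.P154.Bern

namespace Vale.Agent.P154

open Bern

/-- the sequence `a, b, 0, 0, …` -/
def seq2 (a b : ℝ) : ℕ → ℝ
  | 0 => a
  | 1 => b
  | _ => 0

noncomputable def V2 (a b : ℝ) : ℝ := (1/2) + (-1)*b^1 + (32/25)*b^2 + (-1)*a^1 + (-18/25)*a^1*b^1 + (32/25)*a^1*b^2 + (-8/25)*a^1*b^3 + (32/25)*a^2 + (32/25)*a^2*b^1 + (8/25)*a^2*b^2 + (-24/25)*a^2*b^3 + (-8/25)*a^3*b^1 + (-24/25)*a^3*b^2 + (-8/25)*a^3*b^3

def V2_pol : Pol 2 := ([[6553600, -1638400, 262144, 0], [-1638400, -147456, 32768, -1024], [262144, 32768, 1024, -384], [0, -1024, -384, -16]] : List (List ℤ))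

def V2_tree : Tree := (.node 0 (.node 1 .leaf .leaf) (.node 1 .leaf (.node 0 (.node 1 .leaf .leaf) (.node 1 .leaf .leaf))))

theorem V2_check : checkT 2 V2_pol V2_tree [(-8, 8), (-8, 8)] = true := by decide +kernel

theorem V2_nonneg (a b : ℝ) (h1 : (-1) ≤ a) (h2 : a ≤ 1) (h3 : (-1) ≤ b) (h4 : b ≤ 1) : 0 ≤ V2 a b := by
  have h := checkT_sound 2 V2_pol V2_tree _ (seq2 (8 * a) (8 * b)) V2_check
    ⟨by simp only [seq2]; push_cast; linarith, by simp only [seq2]; push_cast; linarith,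
      by simp only [seq2]; push_cast; linarith, by simp only [seq2]; push_cast; linarith, trivial⟩
  have e : Pol.ev 2 (seq2 (8 * a) (8 * b)) V2_pol = 13107200 * V2 a b := by
    simp only [V2_pol, Pol.ev, evL, toReal, seq2, V2]
    push_cast
    ring
  rw [e] at h
  exact nonneg_of_mul_nonneg_right h (by norm_num)

noncomputable def V1 (a b : ℝ) : ℝ := (997/1000) + (14/15)*b^1 + (-202/75)*b^2 + (-88/75)*b^3 + (472/75)*b^4 + (-64/15)*b^5 + (14/15)*a^1 + (-26/45)*a^1*b^1 + (-346/225)*a^1*b^2 + (626/225)*a^1*b^3 + (-944/225)*a^1*b^4 + (128/45)*a^1*b^5 + (-202/75)*a^2 + (-346/225)*a^2*b^1 + (-2)*a^2*b^2 + 6*a^2*b^3 + (-88/75)*a^3 + (626/225)*a^3*b^1 + 6*a^3*b^2 + (-8)*a^3*b^3 + (472/75)*a^4 + (-944/225)*a^4*b^1 + (-64/15)*a^5 + (128/45)*a^5*b^1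

def V1_pol : Pol 2 := ([[9634685386752, 1127428915200, -406679715840, -22145925120, 14847836160, -1258291200], [1127428915200, -87241523200, -29024583680, 6564085760, -1237319680, 104857600], [-406679715840, -29024583680, -4718592000, 1769472000, 0, 0], [-22145925120, 6564085760, 1769472000, -294912000, 0, 0], [14847836160, -1237319680, 0, 0, 0, 0], [-1258291200, 104857600, 0, 0, 0, 0]] : List (List ℤ))

def V1_tree : Tree := (.node 0 (.node 1 (.node 0 (.node 1 .leaf .leaf) (.node 1 .leaf (.node 0 (.node 1 .leaf .leaf) .leaf))) (.node 0 (.node 1 .leaf (.node 0 .leaf (.node 1 (.node 0 .leaf (.node 1 .leaf .leaf)) .leaf))) (.node 1 .leaf .leaf))) (.node 1 (.node 0 (.node 1 .leaf .leaf) (.node 1 (.node 0 (.node 1 .leaf (.node 0 (.node 1 .leaf .leaf) (.node 1 .leaf .leaf))) .leaf) .leaf)) (.node 0 .leaf .leaf)))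

theorem V1_check : checkT 2 V1_pol V1_tree [(-8, 8), (-8, 8)] = true := by decide +kernel

theorem V1_nonneg (a b : ℝ) (h1 : (-1) ≤ a) (h2 : a ≤ 1) (h3 : (-1) ≤ b) (h4 : b ≤ 1) : 0 ≤ V1 a b := by
  have h := checkT_sound 2 V1_pol V1_tree _ (seq2 (8 * a) (8 * b)) V1_check
    ⟨by simp only [seq2]; push_cast; linarith, by simp only [seq2]; push_cast; linarith,
      by simp only [seq2]; push_cast; linarith, by simp only [seq2]; push_cast; linarith, trivial⟩
  have e : Pol.ev 2 (seq2 (8 * a) (8 * b)) V1_pol = 9663676416000 * V1 a b := by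
    simp only [V1_pol, Pol.ev, evL, toReal, seq2, V1]
    push_cast
    ring
  rw [e] at h
  exact nonneg_of_mul_nonneg_right h (by norm_num)

end Vale.Agent.P154
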